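import Vale.Agent.P340.SR

/-!
# Uniqueness of types in functional specifications
-/

namespace Vale.Agent.P340

open Tm

universe u

variable {S : Type u}

/-- Functional (singly sorted) specifications. -/
structure Functional (P : Spec S) : Prop where
  ax_fun : ∀ a b b', P.ax a b → P.ax a b' → b = b'
  rule_fun : ∀ a b c c', P.rule a b c → P.rule a b c' → c = c'

/-- Uniqueness of types up to conversion. -/
theorem Typing.unique {P : Spec S} (hP : Functional P) (M : Tm S) :
    ∀ {Γ : List (Tm S)} {A A' : Tm S}, Typing P Γ M A → Typing P Γ M A' → BetaEq A A' := by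
  induction M with
  | var i =>
    intro Γ A A' h h'
    obtain ⟨B, hB, hc⟩ := h.gen_var
    obtain ⟨B', hB', hc'⟩ := h'.gen_var
    rw [hB] at hB'
    cases hB'
    exact hc.trans hc'.symm
  | sort s =>
    intro Γ A A' h h'
    obtain ⟨t, ht, hc⟩ := h.gen_sort
    obtain ⟨t', ht', hc'⟩ := h'.gen_sort
    have := hP.ax_fun _ _ _ ht ht'
    subst this
    exact hc.trans hc'.symm
  | app M N ihM _ =>
    intro Γ A A' h h'
    obtain ⟨A1, B1, hM, _, hc⟩ := h.gen_app
    obtain ⟨A2, B2, hM', _, hc'⟩ := h'.gen_app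
    have h1 := (ihM hM hM').pi_inj
    exact hc.trans ((BetaEq.subst h1.2 (BetaEq.refl N) 0).trans hc'.symm)
  | lam A₀ M _ ihM =>
    intro Γ A A' h h'
    obtain ⟨B1, s1, hM, _, hc⟩ := h.gen_lam
    obtain ⟨B2, s2, hM', _, hc'⟩ := h'.gen_lam
    have h1 := ihM hM hM'
    exact hc.trans ((BetaEq.pi (BetaEq.refl A₀) h1).trans hc'.symm)
  | pi A₀ B ihA ihB =>
    intro Γ A A' h h'
    obtain ⟨s1, s2, s3, hr, hA, hB, hc⟩ := h.gen_pi
    obtain ⟨t1, t2, t3, hr', hA', hB', hc'⟩ := h'.gen_pi
    have e1 : s1 = t1 := (ihA hA hA').sort_inj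
    have e2 : s2 = t2 := (ihB hB hB').sort_inj
    subst e1
    subst e2
    have e3 := hP.rule_fun _ _ _ _ hr hr'
    subst e3
    exact hc.trans hc'.symm

/-- Convertible types have the same sort. -/
theorem Typing.unique_sort {P : Spec S} (hP : Functional P) {Γ : List (Tm S)} {A A' : Tm S}
    {s s' : S} (h : Typing P Γ A (Tm.sort s)) (h' : Typing P Γ A' (Tm.sort s'))
    (hc : BetaEq A A') : s = s' := by
  obtain ⟨K, h1, h2⟩ := hc.common_reduct
  exact (Typing.unique hP K (h.red h1) (h'.red h2)).sort_inj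

end Vale.Agent.P340
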