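import Vale.Agent.P340.Dep.Tiered
import Vale.Agent.P340.Dep.Unique

/-!
# Tiered specifications: the degree of the type is the degree of the subject plus one
-/

namespace Vale.Agent.P340

open Tm

theorem tiered_functional (n : ℕ) (ρ : ℕ → ℕ → Prop) : Functional (tiered n ρ) := by
  constructor
  · intro a b b' h h'
    exact h.1.trans h'.1.symm
  · intro a b c c' h h'
    exact h.1.trans h'.1.symm

/-- Size of a term (every constructor counts one). -/
def tszDg : Tm ℕ → ℕ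
  | Tm.var _ => 1
  | Tm.sort _ => 1
  | Tm.app M N => tszDg M + tszDg N + 1
  | Tm.lam A M => tszDg A + tszDg M + 1
  | Tm.pi A B => tszDg A + tszDg B + 1

/-- Size of a context. -/
def cszDg : List (Tm ℕ) → ℕ
  | [] => 0
  | A :: Γ => tszDg A + cszDg Γ

theorem cszDg_drop : ∀ (Γ : List (Tm ℕ)) (i : ℕ) (A : Tm ℕ), Γ[i]? = some A →
    cszDg (Γ.drop (i + 1)) + tszDg A ≤ cszDg Γ := by
  intro Γ
  induction Γ with
  | nil => intro i A h; simp at h
  | cons B Γ ih =>
    intro i A h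
    cases i with
    | zero =>
      simp only [List.getElem?_cons_zero, Option.some.injEq] at h
      subst h
      simp only [zero_add, List.drop_succ_cons, List.drop_zero, cszDg]
      omega
    | succ i =>
      simp only [List.getElem?_cons_succ] at h
      have := ih i A h
      simp only [List.drop_succ_cons, cszDg]
      omega

/-- The level of a type: `m + 2` for the sort `m`, `i + 1` for a type of sort `i`. -/
def LTDg (P : Spec ℕ) (Γ : List (Tm ℕ)) (A : Tm ℕ) (k : ℕ) : Prop :=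
  (∃ m, A = Tm.sort m ∧ k = m + 2) ∨ (∃ i, Typing P Γ A (Tm.sort i) ∧ k = i + 1)

theorem LTDg_sort_typed {n : ℕ} {ρ : ℕ → ℕ → Prop} {Γ : List (Tm ℕ)} {Y : Tm ℕ} {m i : ℕ}
    (hc : BetaEq (Tm.sort m) Y) (hY : Typing (tiered n ρ) Γ Y (Tm.sort i)) : i = m + 1 := by
  have hr : Red Y (Tm.sort m) := hc.symm.red_sort
  have h1 := hY.red hr
  obtain ⟨s', hax, hs'⟩ := h1.gen_sort
  have e1 : i = s' := hs'.sort_inj
  have e2 : s' = m + 1 := hax.1
  omega

theorem LTDg_unique {n : ℕ} {ρ : ℕ → ℕ → Prop} {Γ : List (Tm ℕ)} {X Y : Tm ℕ} {k k2 : ℕ}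
    (hc : BetaEq X Y) (hX : LTDg (tiered n ρ) Γ X k) (hY : LTDg (tiered n ρ) Γ Y k2) :
    k = k2 := by
  rcases hX with ⟨m, rfl, rfl⟩ | ⟨i, hXi, rfl⟩
  · rcases hY with ⟨m', rfl, rfl⟩ | ⟨i', hYi, rfl⟩
    · have := hc.sort_inj
      omega
    · have := LTDg_sort_typed hc hYi
      omega
  · rcases hY with ⟨m', rfl, rfl⟩ | ⟨i', hYi, rfl⟩
    · have := LTDg_sort_typed hc.symm hXi
      omega
    · have := Typing.unique_sort (tiered_functional n ρ) hXi hYi hc
      omega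

theorem deg_claimDg {n : ℕ} {ρ : ℕ → ℕ → Prop} : ∀ (N : ℕ) (Γ : List (Tm ℕ)) (M A : Tm ℕ) (k : ℕ),
    cszDg Γ + tszDg M ≤ N → Typing (tiered n ρ) Γ M A → LTDg (tiered n ρ) Γ A k →
    deg (degs Γ) M + 1 = k := by
  intro N
  induction N with
  | zero =>
    intro Γ M A k hN
    cases M <;> simp only [tszDg] at hN <;> omega
  | succ N ih =>
    intro Γ M A k hN h hk
    cases M with
    | var i =>
      obtain ⟨Ai, hget, hc⟩ := h.gen_var
      obtain ⟨s, hs⟩ := h.wf.typing_get hget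
      have hlen : i + 1 ≤ Γ.length := by
        have := (List.getElem?_eq_some_iff.1 hget).1
        omega
      have h1 := Typing.shift_drop h.wf hlen hs
      rw [shift_sort] at h1
      have hk' : k = s + 1 := LTDg_unique hc hk (Or.inr ⟨s, h1, rfl⟩)
      have hsz := cszDg_drop Γ i Ai hget
      have h2 := ih (Γ.drop (i + 1)) Ai (Tm.sort s) (s + 2)
        (by simp only [tszDg] at hN; omega) hs (Or.inl ⟨s, rfl, rfl⟩)
      have h3 := degs_get Γ i Ai hget
      simp only [deg]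
      omega
    | sort s =>
      obtain ⟨s', hax, hc⟩ := h.gen_sort
      have hk' : k = s' + 2 := LTDg_unique hc hk (Or.inl ⟨s', rfl, rfl⟩)
      have e2 : s' = s + 1 := hax.1
      simp only [deg]
      omega
    | app M₀ N₀ =>
      obtain ⟨A', B, hM, hN', hc⟩ := h.gen_app
      rcases hM.type_correct with ⟨s, hs⟩ | ⟨s, hs⟩
      · exact absurd hs (by simp)
      · obtain ⟨s1, s2, s3, hr, hA', hB, hc3⟩ := hs.gen_pi
        have e1 : s = s3 := hc3.sort_inj
        have e2 : s3 = s2 := hr.1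
        have h1 : Typing (tiered n ρ) Γ (Tm.subst 0 N₀ B) (Tm.sort s2) := hB.subst_zero hN'
        have hk' : k = s2 + 1 := LTDg_unique hc hk (Or.inr ⟨s2, h1, rfl⟩)
        have h2 := ih Γ M₀ (Tm.pi A' B) (s + 1)
          (by simp only [tszDg] at hN; omega) hM (Or.inr ⟨s, hs, rfl⟩)
        simp only [deg]
        omega
    | lam A₀ M₀ =>
      obtain ⟨B, s, hM, hpi, hc⟩ := h.gen_lam
      obtain ⟨s1, s2, s3, hr, hA', hB, hc3⟩ := hpi.gen_pi
      have e1 : s = s3 := hc3.sort_inj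
      have e2 : s3 = s2 := hr.1
      have hk' : k = s + 1 := LTDg_unique hc hk (Or.inr ⟨s, hpi, rfl⟩)
      have h2 := ih (A₀ :: Γ) M₀ B (s2 + 1)
        (by simp only [tszDg, cszDg] at hN ⊢; omega) hM (Or.inr ⟨s2, hB, rfl⟩)
      have e3 : deg (degs Γ) (Tm.lam A₀ M₀) = deg (degs (A₀ :: Γ)) M₀ := rfl
      omega
    | pi A₀ B =>
      obtain ⟨s1, s2, s3, hr, hA', hB, hc⟩ := h.gen_pi
      have e2 : s3 = s2 := hr.1
      have hk' : k = s3 + 2 := LTDg_unique hc hk (Or.inl ⟨s3, rfl, rfl⟩)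
      have h2 := ih (A₀ :: Γ) B (Tm.sort s2) (s2 + 2)
        (by simp only [tszDg, cszDg] at hN ⊢; omega) hB (Or.inl ⟨s2, rfl, rfl⟩)
      have e3 : deg (degs Γ) (Tm.pi A₀ B) = deg (degs (A₀ :: Γ)) B := rfl
      omega

/-- The classification theorem of tiered specifications. -/
theorem Typing.deg_type {n : ℕ} {ρ : ℕ → ℕ → Prop} {Γ : List (Tm ℕ)} {M A : Tm ℕ}
    (h : Typing (tiered n ρ) Γ M A) : deg (degs Γ) A = deg (degs Γ) M + 1 := by
  rcases h.type_correct with ⟨m, rfl⟩ | ⟨i, hi⟩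
  · have h1 := deg_claimDg _ Γ M (Tm.sort m) (m + 2) le_rfl h (Or.inl ⟨m, rfl, rfl⟩)
    simp only [deg]
    omega
  · have h1 := deg_claimDg _ Γ M A (i + 1) le_rfl h (Or.inr ⟨i, hi, rfl⟩)
    have h2 := deg_claimDg _ Γ A (Tm.sort i) (i + 2) le_rfl hi (Or.inl ⟨i, rfl, rfl⟩)
    omega

theorem Typing.deg_of_sort {n : ℕ} {ρ : ℕ → ℕ → Prop} {Γ : List (Tm ℕ)} {A : Tm ℕ} {i : ℕ}
    (h : Typing (tiered n ρ) Γ A (Tm.sort i)) : deg (degs Γ) A = i + 1 := by
  have := h.deg_type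
  simp only [deg] at this
  omega

theorem Typing.deg_beta {n : ℕ} {ρ : ℕ → ℕ → Prop} {Γ : List (Tm ℕ)} {M M' A : Tm ℕ}
    (h : Typing (tiered n ρ) Γ M A) (hb : Beta M M') : deg (degs Γ) M' = deg (degs Γ) M := by
  have h1 := h.deg_type
  have h2 := (h.beta hb).deg_type
  omega

theorem Typing.deg_red {n : ℕ} {ρ : ℕ → ℕ → Prop} {Γ : List (Tm ℕ)} {M M' A : Tm ℕ}
    (h : Typing (tiered n ρ) Γ M A) (hb : Red M M') : deg (degs Γ) M' = deg (degs Γ) M := by
  have h1 := h.deg_type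
  have h2 := (h.red hb).deg_type
  omega

end Vale.Agent.P340
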