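import Vale.Agent.P340.Dep.TransCtx
import Vale.Agent.P340.AccSeq
import Vale.Agent.P340.Stratified

/-!
# Dependency elimination for tiered specifications
-/

namespace Vale.Agent.P340

open Tm

/-- Strong normalization is reflected by the shadow of degree `0`. -/
theorem SNt_of_tr {n : ℕ} {ρ : ℕ → ℕ → Prop} (Γ : List (Tm ℕ)) (T : Tm ℕ) (env : ℕ → ℕ → ℕ)
    (o : ℕ → ℕ) (X : Tm ℕ) (hX : Acc (fun a b : Tm ℕ => Red1 b a) X) :
    ∀ M, Typing (tiered n ρ) Γ M T → tr M 0 (degs Γ) env o = X → SNt M := by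
  induction hX with
  | intro X _ ih =>
    intro M hM hEq
    refine Acc.intro M ?_
    intro M' hstep
    refine ih (tr M' 0 (degs Γ) env o) ?_ M' (hM.beta hstep) rfl
    rw [← hEq]
    exact (Typing.tr_beta hstep hM env o).2

theorem acc_red1_of_SNt {X : Tm ℕ} (h : SNt X) : Acc (fun a b : Tm ℕ => Red1 b a) X := by
  have h1 : Acc (Relation.TransGen (fun a b : Tm ℕ => Beta b a)) X := Acc.transGen h
  have h2 : ∀ a b : Tm ℕ, Red1 b a → Relation.TransGen (fun a b : Tm ℕ => Beta b a) a b := by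
    intro a b hab
    induction hab with
    | single h => exact Relation.TransGen.single h
    | tail _ h ih => exact Relation.TransGen.head h ih
  exact Subrelation.accessible (fun {a b} hab => h2 a b hab) h1

theorem SNt_of_typing_tiered {n : ℕ} {ρ ρ' : ℕ → ℕ → Prop} (hc : Covers ρ ρ')
    (hSN : SN (tiered n ρ')) {Γ : List (Tm ℕ)} {M T : Tm ℕ} (h : Typing (tiered n ρ) Γ M T) :
    SNt M := by
  have hn : 1 < n := by
    obtain ⟨a, b, hab⟩ := h.exists_ax
    have := hab.1
    have := hab.2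
    omega
  have hE := envOK_cctx hc hn Γ h.wf
  have hty := h.trOK hc (cctx Γ) (cenv Γ) (caux Γ) 0 hE (Nat.zero_le _)
  have hs : SNt (tr M 0 (degs Γ) (cenv Γ) (caux Γ)) :=
    (SNt_iff_not_hasInfRed _).2 (hSN _ ⟨_, _, Or.inl hty⟩)
  exact SNt_of_tr Γ T (cenv Γ) (caux Γ) _ (acc_red1_of_SNt hs) M h rfl

/-- If `ρ'` contains the rules needed by the translation, strong normalization of `tiered n ρ'`
implies strong normalization of `tiered n ρ`. -/
theorem tiered_sn_of_covers {n : ℕ} {ρ ρ' : ℕ → ℕ → Prop} (hc : Covers ρ ρ')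
    (hSN : SN (tiered n ρ')) : SN (tiered n ρ) := by
  intro M hM
  rw [← SNt_iff_not_hasInfRed]
  obtain ⟨Γ, T, h | h⟩ := hM
  · exact SNt_of_typing_tiered hc hSN h
  · rcases h.type_correct with ⟨s, rfl⟩ | ⟨s, hs⟩
    · exact Acc.intro _ (by intro y hy; cases hy)
    · exact SNt_of_typing_tiered hc hSN hs

/-- The non-dependent rules of `ρ`: the sort of the domain is not below the sort of the codomain. -/
def nondep (ρ : ℕ → ℕ → Prop) : ℕ → ℕ → Prop := fun i j => ρ i j ∧ j ≤ i

/-- The set of rules is closed downwards: with `(i, j, j)` it contains all the non-dependent rules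
`(i', f, f)` with `f ≤ j` and `f ≤ i' ≤ i`. -/
def DownClosed (ρ : ℕ → ℕ → Prop) : Prop :=
  ∀ i j, ρ i j → ∀ f i', f ≤ j → f ≤ i' → i' ≤ i → ρ i' f

theorem covers_nondep {ρ : ℕ → ℕ → Prop} (h : DownClosed ρ) : Covers ρ (nondep ρ) :=
  fun i j hij f i' h1 h2 h3 => ⟨h i j hij f i' h1 h2 h3, h2⟩

/-- Dependency elimination. -/
theorem tiered_sn_iff {n : ℕ} {ρ : ℕ → ℕ → Prop} (h : DownClosed ρ) :
    SN (tiered n ρ) ↔ SN (tiered n (nondep ρ)) := by
  constructor
  · intro hs
    exact SN.mono (P := tiered n (nondep ρ)) (P' := tiered n ρ) (fun _ _ hab => hab)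
      (fun _ _ _ hab => ⟨hab.1, hab.2.1, hab.2.2.1, hab.2.2.2.1⟩) hs
  · exact tiered_sn_of_covers (covers_nondep h)

/-- The Barendregt-Geuvers-Klop implication for a tiered specification with a downwards closed set
of rules follows from the implication for its non-dependent part. -/
theorem tiered_bgk {n : ℕ} {ρ : ℕ → ℕ → Prop} (h : DownClosed ρ)
    (hnd : WN (tiered n (nondep ρ)) → SN (tiered n (nondep ρ))) (hW : WN (tiered n ρ)) :
    SN (tiered n ρ) :=
  (tiered_sn_iff h).2 (hnd (WN.mono (P := tiered n (nondep ρ)) (P' := tiered n ρ)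
    (fun _ _ hab => hab) (fun _ _ _ hab => ⟨hab.1, hab.2.1, hab.2.2.1, hab.2.2.2.1⟩) hW))

end Vale.Agent.P340
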