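import Vale.Agent.P340.Dep.Tele
import Vale.Agent.P340.SR

/-!
# Telescopes: typing lemmas
-/

namespace Vale.Agent.P340

open Tm

universe u

variable {S : Type u}

theorem shift_shift_telety (a b : ℕ) (M : Tm S) : shift a (shift b M) = shift (a + b) M := by
  induction a with
  | zero => rw [Nat.zero_add]; rfl
  | succ a ih =>
    have e : a + 1 + b = (a + b) + 1 := by omega
    rw [e]
    simp only [shift, ih]

/-- The new head declaration of a telescope step is well-formed. -/
theorem wf_cons_telety {P : Spec S} {k : ℕ} {Δ : List (Tm S)} {D : Tm S} {a : S} (hw : Wf P Δ)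
    (hk : k ≤ Δ.length) (hD : Typing P (Δ.drop k) D (sort a)) :
    Typing P Δ (shift k D) (sort a) := by
  have h := Typing.shift_drop hw hk hD
  rwa [shift_sort] at h

/-- Extending a well-formed context by a telescope of types of the base context `Δ.drop k`. -/
theorem wf_extFrom {P : Spec S} (Ds : List (Tm S)) : ∀ (k : ℕ) (Δ : List (Tm S)), Wf P Δ →
    k ≤ Δ.length → (∀ D ∈ Ds, ∃ a, Typing P (Δ.drop k) D (sort a)) → Wf P (extFrom k Ds Δ) := by
  induction Ds with
  | nil => intro k Δ hw _ _; exact hw
  | cons D Ds ih =>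
    intro k Δ hw hk hDs
    obtain ⟨a, ha⟩ := hDs D (List.mem_cons_self)
    refine ih (k + 1) (shift k D :: Δ) (Wf.cons (wf_cons_telety hw hk ha)) ?_ ?_
    · simp only [List.length_cons]; omega
    · intro D' hD'
      rw [List.drop_succ_cons]
      exact hDs D' (List.mem_cons_of_mem _ hD')

/-- Weakening by a whole telescope. -/
theorem Typing.shift_extFrom {P : Spec S} {Δ : List (Tm S)} {Ds : List (Tm S)} {M T : Tm S}
    (hw : Wf P (extFrom 0 Ds Δ)) (h : Typing P Δ M T) :
    Typing P (extFrom 0 Ds Δ) (Tm.shift Ds.length M) (Tm.shift Ds.length T) := by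
  refine Typing.shift_drop hw ?_ ?_
  · rw [extFrom_length]; omega
  · rw [extFrom_drop]; exact h

/-- The variable bound by the domain number `r` of the telescope. -/
theorem typing_var_extFrom {P : Spec S} {Δ : List (Tm S)} {Ds : List (Tm S)}
    (hw : Wf P (extFrom 0 Ds Δ)) (r : ℕ) (h : r < Ds.length) :
    Typing P (extFrom 0 Ds Δ) (var (Ds.length - 1 - r)) (shift Ds.length Ds[r]) := by
  have h1 := Wf.typing_var hw (extFrom_get Ds 0 Δ r h)
  rw [shift_shift_telety] at h1
  have e : Ds.length - 1 - r + 1 + (0 + r) = Ds.length := by omega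
  rwa [e] at h1

/-- Formation of an iterated product. -/
theorem typing_pisFrom {P : Spec S} {c : S} (Ds : List (Tm S)) : ∀ (k : ℕ) (Δ : List (Tm S))
    (b : Tm S), Wf P Δ → k ≤ Δ.length →
    (∀ D ∈ Ds, ∃ a, Typing P (Δ.drop k) D (sort a) ∧ P.rule a c c) →
    Typing P (extFrom k Ds Δ) b (sort c) → Typing P Δ (pisFrom k Ds b) (sort c) := by
  induction Ds with
  | nil => intro k Δ b _ _ _ hb; exact hb
  | cons D Ds ih =>
    intro k Δ b hw hk hDs hb
    obtain ⟨a, ha, hr⟩ := hDs D (List.mem_cons_self)
    have hD := wf_cons_telety hw hk ha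
    refine Typing.prod hr hD (ih (k + 1) (shift k D :: Δ) b (Wf.cons hD) ?_ ?_ hb)
    · simp only [List.length_cons]; omega
    · intro D' hD'
      rw [List.drop_succ_cons]
      exact hDs D' (List.mem_cons_of_mem _ hD')

/-- Introduction of an iterated abstraction. -/
theorem typing_lamsFrom {P : Spec S} {c : S} (Ds : List (Tm S)) : ∀ (k : ℕ) (Δ : List (Tm S))
    (b T : Tm S), Wf P Δ → k ≤ Δ.length →
    (∀ D ∈ Ds, ∃ a, Typing P (Δ.drop k) D (sort a) ∧ P.rule a c c) →
    Typing P (extFrom k Ds Δ) T (sort c) → Typing P (extFrom k Ds Δ) b T →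
    Typing P Δ (lamsFrom k Ds b) (pisFrom k Ds T) := by
  induction Ds with
  | nil => intro k Δ b T _ _ _ _ hb; exact hb
  | cons D Ds ih =>
    intro k Δ b T hw hk hDs hT hb
    obtain ⟨a, ha, hr⟩ := hDs D (List.mem_cons_self)
    have hD := wf_cons_telety hw hk ha
    refine Typing.abs (ih (k + 1) (shift k D :: Δ) b T (Wf.cons hD) ?_ ?_ hT hb)
      (typing_pisFrom (D :: Ds) k Δ T hw hk hDs hT)
    · simp only [List.length_cons]; omega
    · intro D' hD'
      rw [List.drop_succ_cons]
      exact hDs D' (List.mem_cons_of_mem _ hD')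

theorem inst_shift_succ_telety (N D : Tm S) (j : ℕ) :
    inst (upsn j (fun i => if i < 0 then var i else if i = 0 then N else var (i - 1)))
      (shift (j + 1) D) = shift j D := by
  rw [← shift_shift_telety j 1 D, inst_upsn_shift, ← subst_eq_inst]
  simp only [shift, subst_lift]

theorem inst_pisFrom_succ_telety (N : Tm S) (Ds : List (Tm S)) : ∀ (j : ℕ) (T : Tm S),
    inst (upsn j (fun i => if i < 0 then var i else if i = 0 then N else var (i - 1)))
      (pisFrom (j + 1) Ds T) =
    pisFrom j Ds (inst (upsn (j + Ds.length)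
      (fun i => if i < 0 then var i else if i = 0 then N else var (i - 1))) T) := by
  induction Ds with
  | nil => intro j T; rfl
  | cons D Ds ih =>
    intro j T
    have h := ih (j + 1) T
    have e : j + 1 + Ds.length = j + (D :: Ds).length := by simp only [List.length_cons]; omega
    rw [e] at h
    simp only [pisFrom, inst, inst_shift_succ_telety]
    rw [← h]
    rfl

/-- Elimination: an iterated application. -/
theorem typing_apps {P : Spec S} {Δ : List (Tm S)} (Ds : List (Tm S)) : ∀ (F T : Tm S)
    (Ns : List (Tm S)), Typing P Δ F (pisFrom 0 Ds T) →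
    List.Forall₂ (fun N D => Typing P Δ N D) Ns Ds →
    Typing P Δ (apps F Ns) (inst (tsub Ns) T) := by
  induction Ds with
  | nil =>
    intro F T Ns hF hN
    cases hN
    rw [inst_congr T tsub_nil_tele, inst_var]
    exact hF
  | cons D Ds ih =>
    intro F T Ns hF hN
    cases hN with
    | @cons N _ Ns' _ h1 h2 =>
      have hF' : Typing P Δ F (pi D (pisFrom 1 Ds T)) := hF
      have h3 := Typing.app hF' h1
      rw [subst_eq_inst] at h3
      have h4 := inst_pisFrom_succ_telety N Ds 0 T
      simp only [upsn, Nat.zero_add] at h4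
      rw [h4] at h3
      have h5 := ih _ _ Ns' h3 h2
      have e : Ds.length = Ns'.length := h2.length_eq.symm
      rw [e, inst_inst, inst_congr T (tsub_step_tele N Ns')] at h5
      exact h5

end Vale.Agent.P340
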