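import Vale.Agent.P340.Dep.TransSim
import Vale.Agent.P340.Dep.TeleTy

/-!
# The dependency eliminating translation: admissible target contexts
-/

namespace Vale.Agent.P340

open Tm

/-- The target context `Δ` and the indices `env`, `o` are admissible for the source context `Γ` from
degree `e₀` on: each shadow of degree at least `e₀` of each variable of `Γ` has the expected type. -/
structure EnvOK (P' : Spec ℕ) (Γ Δ : List (Tm ℕ)) (env : ℕ → ℕ → ℕ) (o : ℕ → ℕ) (e₀ : ℕ) :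
    Prop where
  wf : Wf P' Δ
  o1 : Typing P' Δ (var (o 1)) (sort 0)
  o0 : Typing P' Δ (var (o 0)) (var (o 1))
  vars : ∀ i A, Γ[i]? = some A → ∀ e', e₀ ≤ e' → e' ≤ degs Γ i →
    Typing P' Δ (var (env i e')) (tr (shift (i + 1) A) (e' + 1) (degs Γ) env o)

/-- The judgment `Γ ⊢ M : A` is preserved by the translation. -/
def TrOK (P' : Spec ℕ) (Γ : List (Tm ℕ)) (M A : Tm ℕ) : Prop :=
  ∀ (Δ : List (Tm ℕ)) (env : ℕ → ℕ → ℕ) (o : ℕ → ℕ) (e : ℕ), EnvOK P' Γ Δ env o e →
    e ≤ deg (degs Γ) M →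
    Typing P' Δ (tr M e (degs Γ) env o) (tr A (e + 1) (degs Γ) env o)

theorem EnvOK.mono {P' : Spec ℕ} {Γ Δ : List (Tm ℕ)} {env : ℕ → ℕ → ℕ} {o : ℕ → ℕ} {e₀ e₁ : ℕ}
    (h : EnvOK P' Γ Δ env o e₀) (he : e₀ ≤ e₁) : EnvOK P' Γ Δ env o e₁ :=
  ⟨h.wf, h.o1, h.o0, fun i A hi e' h1 h2 => h.vars i A hi e' (le_trans he h1) h2⟩

/-- Forgetting the innermost variable of the source context. -/
theorem EnvOK.tail {P' : Spec ℕ} {Γ Δ : List (Tm ℕ)} {A : Tm ℕ} {env : ℕ → ℕ → ℕ} {o : ℕ → ℕ}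
    {e₀ : ℕ} (h : EnvOK P' (A :: Γ) Δ env o e₀) : EnvOK P' Γ Δ (fun i => env (i + 1)) o e₀ := by
  refine ⟨h.wf, h.o1, h.o0, ?_⟩
  intro i C hi e' h1 h2
  have h3 := h.vars (i + 1) C (by simpa using hi) e' h1 h2
  have e : tr (shift (i + 1 + 1) C) (e' + 1) (degs (A :: Γ)) env o =
      tr (shift (i + 1) C) (e' + 1) (degs Γ) (fun i => env (i + 1)) o :=
    tr_lift_zero (shift (i + 1) C) (e' + 1) _ (degs Γ) env o
  rw [e] at h3
  exact h3

/-- The shadow of degree `e + 2` of a sort `i` with `e ≤ i` is the sort `e`. -/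
theorem tr_sort_succ_succ {e i : ℕ} (h : e ≤ i) (ℓ : ℕ → ℕ) (env : ℕ → ℕ → ℕ) (o : ℕ → ℕ) :
    tr (sort i) (e + 2) ℓ env o = sort e := by
  simp only [tr]
  rw [if_neg (by omega)]
  by_cases h' : e = i
  · subst h'
    simp
  · rw [if_neg (by omega), if_pos (by omega)]
    simp

theorem tr_sort_one (i : ℕ) (ℓ : ℕ → ℕ) (env : ℕ → ℕ → ℕ) (o : ℕ → ℕ) :
    tr (sort i) 1 ℓ env o = var (o 1) := by
  simp only [tr]
  rw [if_neg (by omega), if_neg (by omega), if_neg (by omega)]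

theorem tr_sort_zero (i : ℕ) (ℓ : ℕ → ℕ) (env : ℕ → ℕ → ℕ) (o : ℕ → ℕ) :
    tr (sort i) 0 ℓ env o = var (o 0) := by
  simp only [tr]
  rw [if_neg (by omega), if_neg (by omega), if_neg (by omega)]

/-- The shadows of a type `A` of sort `i` are types: the shadow of degree `e' + 1` has sort `e'`. -/
theorem TrOK.dom {n : ℕ} {ρ ρ' : ℕ → ℕ → Prop} {Γ Δ : List (Tm ℕ)} {A : Tm ℕ} {i : ℕ}
    {env : ℕ → ℕ → ℕ} {o : ℕ → ℕ} {e₀ : ℕ} (hA : Typing (tiered n ρ) Γ A (sort i))
    (ihA : TrOK (tiered n ρ') Γ A (sort i)) (hE : EnvOK (tiered n ρ') Γ Δ env o e₀)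
    {e' : ℕ} (h1 : e₀ ≤ e' + 1) (h2 : e' ≤ i) :
    Typing (tiered n ρ') Δ (tr A (e' + 1) (degs Γ) env o) (sort e') := by
  have hd := hA.deg_of_sort
  have h3 := ihA Δ env o (e' + 1) (hE.mono h1) (by omega)
  rw [tr_sort_succ_succ h2] at h3
  exact h3

/-- Extension of an admissible context under a telescope binding the shadows of degrees
`i, ..., lo` of a new variable of type `A` (of sort `i`). -/
theorem EnvOK.ext {n : ℕ} {ρ ρ' : ℕ → ℕ → Prop} {Γ Δ : List (Tm ℕ)} {A : Tm ℕ} {i : ℕ}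
    {env : ℕ → ℕ → ℕ} {o : ℕ → ℕ} {e₀ : ℕ} (hA : Typing (tiered n ρ) Γ A (sort i))
    (ihA : TrOK (tiered n ρ') Γ A (sort i)) (hE : EnvOK (tiered n ρ') Γ Δ env o e₀)
    (lo e₁ : ℕ) (h1 : e₀ ≤ lo + 1) (h2 : lo ≤ e₁) (h3 : e₀ ≤ e₁) :
    EnvOK (tiered n ρ') (A :: Γ)
      (extFrom 0 ((lvls lo i).map fun e' => tr A (e' + 1) (degs Γ) env o) Δ)
      (econs lo (i + 1 - lo) env) (fun x => o x + (i + 1 - lo)) e₁ := by
  set Ds := (lvls lo i).map fun e' => tr A (e' + 1) (degs Γ) env o with hDs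
  have hlen : Ds.length = i + 1 - lo := by rw [hDs, List.length_map, lvls_length]
  have hd := hA.deg_of_sort
  have hw : Wf (tiered n ρ') (extFrom 0 Ds Δ) := by
    refine wf_extFrom Ds 0 Δ hE.wf (Nat.zero_le _) ?_
    intro D hD
    rw [hDs, List.mem_map] at hD
    obtain ⟨e', he', rfl⟩ := hD
    rw [mem_lvls] at he'
    refine ⟨e', ?_⟩
    rw [List.drop_zero]
    exact TrOK.dom hA ihA hE (by omega) he'.2
  refine ⟨hw, ?_, ?_, ?_⟩
  · have h := Typing.shift_extFrom hw hE.o1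
    rw [shift_var, shift_sort, hlen] at h
    exact h
  · have h := Typing.shift_extFrom hw hE.o0
    rw [shift_var, shift_var, hlen] at h
    exact h
  · intro k C hk e' he1 he2
    cases k with
    | zero =>
      simp only [List.getElem?_cons_zero, Option.some.injEq] at hk
      subst hk
      have he3 : e' ≤ i := by
        have : degs (A :: Γ) 0 = deg (degs Γ) A - 1 := rfl
        omega
      have hr : i - e' < Ds.length := by omega
      have h := typing_var_extFrom hw (i - e') hr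
      have e1 : Ds.length - 1 - (i - e') = e' - lo := by omega
      have e2 : Ds[i - e'] = tr A (e' + 1) (degs Γ) env o := by
        simp only [hDs, List.getElem_map]
        rw [lvls_get]
        have : i - (i - e') = e' := by omega
        rw [this]
      rw [e1, e2, hlen] at h
      have e3 : tr (shift (0 + 1) A) (e' + 1) (degs (A :: Γ)) (econs lo (i + 1 - lo) env)
          (fun x => o x + (i + 1 - lo)) = shift (i + 1 - lo) (tr A (e' + 1) (degs Γ) env o) :=
        tr_lift_econs A (e' + 1) _ lo (i + 1 - lo) (degs Γ) env o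
      rw [e3]
      exact h
    | succ k =>
      simp only [List.getElem?_cons_succ] at hk
      have h0 := hE.vars k C hk e' (by omega) he2
      have h := Typing.shift_extFrom hw h0
      rw [shift_var, hlen] at h
      have e3 : tr (shift (k + 1 + 1) C) (e' + 1) (degs (A :: Γ)) (econs lo (i + 1 - lo) env)
          (fun x => o x + (i + 1 - lo)) =
          shift (i + 1 - lo) (tr (shift (k + 1) C) (e' + 1) (degs Γ) env o) :=
        tr_lift_econs (shift (k + 1) C) (e' + 1) _ lo (i + 1 - lo) (degs Γ) env o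
      rw [e3]
      exact h

end Vale.Agent.P340
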