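import Vale.Agent.P340.Red

/-!
# Renamings and parallel substitutions
-/

namespace Vale.Agent.P340

open Tm

universe u

variable {S : Type u}

namespace Tm

/-- Extension of a renaming under one binder. -/
def upr (ξ : ℕ → ℕ) : ℕ → ℕ
  | 0 => 0
  | i + 1 => ξ i + 1

/-- `ren ξ M` renames the free index `i` of `M` to `ξ i`. -/
def ren : (ℕ → ℕ) → Tm S → Tm S
  | ξ, var i => var (ξ i)
  | _, sort s => sort s
  | ξ, app M N => app (ren ξ M) (ren ξ N)
  | ξ, lam A M => lam (ren ξ A) (ren (upr ξ) M)
  | ξ, pi A B => pi (ren ξ A) (ren (upr ξ) B)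

/-- Extension of a parallel substitution under one binder. -/
def ups (σ : ℕ → Tm S) : ℕ → Tm S
  | 0 => var 0
  | i + 1 => ren Nat.succ (σ i)

/-- `inst σ M` replaces the free index `i` of `M` by `σ i`. -/
def inst : (ℕ → Tm S) → Tm S → Tm S
  | σ, var i => σ i
  | _, sort s => sort s
  | σ, app M N => app (inst σ M) (inst σ N)
  | σ, lam A M => lam (inst σ A) (inst (ups σ) M)
  | σ, pi A B => pi (inst σ A) (inst (ups σ) B)

/-- Extension of a renaming under `m` binders. -/
def uprn : ℕ → (ℕ → ℕ) → ℕ → ℕ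
  | 0, ξ => ξ
  | m + 1, ξ => upr (uprn m ξ)

/-- Extension of a parallel substitution under `m` binders. -/
def upsn : ℕ → (ℕ → Tm S) → ℕ → Tm S
  | 0, σ => σ
  | m + 1, σ => ups (upsn m σ)

end Tm

theorem ren_congr (M : Tm S) : ∀ {ξ ζ : ℕ → ℕ}, (∀ i, ξ i = ζ i) → ren ξ M = ren ζ M := by
  induction M with
  | var i => intro ξ ζ h; simp only [ren, h i]
  | sort s => intro ξ ζ h; rfl
  | app M N ihM ihN => intro ξ ζ h; simp only [ren, ihM h, ihN h]
  | lam A M ihA ihM =>
    intro ξ ζ h
    have h' : ∀ i, upr ξ i = upr ζ i := by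
      intro i; cases i with
      | zero => rfl
      | succ i => simp only [upr, h i]
    simp only [ren, ihA h, ihM h']
  | pi A M ihA ihM =>
    intro ξ ζ h
    have h' : ∀ i, upr ξ i = upr ζ i := by
      intro i; cases i with
      | zero => rfl
      | succ i => simp only [upr, h i]
    simp only [ren, ihA h, ihM h']

theorem inst_congr (M : Tm S) : ∀ {σ τ : ℕ → Tm S}, (∀ i, σ i = τ i) → inst σ M = inst τ M := by
  induction M with
  | var i => intro σ τ h; simp only [inst, h i]
  | sort s => intro σ τ h; rfl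
  | app M N ihM ihN => intro σ τ h; simp only [inst, ihM h, ihN h]
  | lam A M ihA ihM =>
    intro σ τ h
    have h' : ∀ i, ups σ i = ups τ i := by
      intro i; cases i with
      | zero => rfl
      | succ i => simp only [ups, h i]
    simp only [inst, ihA h, ihM h']
  | pi A M ihA ihM =>
    intro σ τ h
    have h' : ∀ i, ups σ i = ups τ i := by
      intro i; cases i with
      | zero => rfl
      | succ i => simp only [ups, h i]
    simp only [inst, ihA h, ihM h']

theorem upr_id_sigma (i : ℕ) : upr (fun i => i) i = i := by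
  cases i <;> rfl

theorem ren_id (M : Tm S) : ren (fun i => i) M = M := by
  induction M with
  | var i => rfl
  | sort s => rfl
  | app M N ihM ihN => simp only [ren, ihM, ihN]
  | lam A M ihA ihM => simp only [ren, ihA, ren_congr M upr_id_sigma, ihM]
  | pi A M ihA ihM => simp only [ren, ihA, ren_congr M upr_id_sigma, ihM]

theorem upr_upr_sigma (ξ ζ : ℕ → ℕ) (i : ℕ) :
    upr ξ (upr ζ i) = upr (fun i => ξ (ζ i)) i := by
  cases i <;> rfl

theorem ren_ren (M : Tm S) : ∀ (ξ ζ : ℕ → ℕ), ren ξ (ren ζ M) = ren (fun i => ξ (ζ i)) M := by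
  induction M with
  | var i => intro ξ ζ; rfl
  | sort s => intro ξ ζ; rfl
  | app M N ihM ihN => intro ξ ζ; simp only [ren, ihM, ihN]
  | lam A M ihA ihM =>
    intro ξ ζ
    simp only [ren, ihA, ihM, ren_congr M (upr_upr_sigma ξ ζ)]
  | pi A M ihA ihM =>
    intro ξ ζ
    simp only [ren, ihA, ihM, ren_congr M (upr_upr_sigma ξ ζ)]

theorem ups_var_sigma (ξ : ℕ → ℕ) (i : ℕ) :
    (var (upr ξ i) : Tm S) = ups (fun i => var (ξ i)) i := by
  cases i <;> rfl

theorem ren_eq_inst (M : Tm S) : ∀ (ξ : ℕ → ℕ), ren ξ M = inst (fun i => var (ξ i)) M := by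
  induction M with
  | var i => intro ξ; rfl
  | sort s => intro ξ; rfl
  | app M N ihM ihN => intro ξ; simp only [ren, inst, ihM, ihN]
  | lam A M ihA ihM =>
    intro ξ
    simp only [ren, inst, ihA, ihM, inst_congr M (ups_var_sigma ξ)]
  | pi A M ihA ihM =>
    intro ξ
    simp only [ren, inst, ihA, ihM, inst_congr M (ups_var_sigma ξ)]

theorem inst_var (M : Tm S) : inst (fun i => var i) M = M := by
  rw [← ren_eq_inst M (fun i => i), ren_id]

theorem ups_upr_sigma (σ : ℕ → Tm S) (ξ : ℕ → ℕ) (i : ℕ) :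
    ups σ (upr ξ i) = ups (fun i => σ (ξ i)) i := by
  cases i <;> rfl

theorem inst_ren (M : Tm S) : ∀ (σ : ℕ → Tm S) (ξ : ℕ → ℕ),
    inst σ (ren ξ M) = inst (fun i => σ (ξ i)) M := by
  induction M with
  | var i => intro σ ξ; rfl
  | sort s => intro σ ξ; rfl
  | app M N ihM ihN => intro σ ξ; simp only [ren, inst, ihM, ihN]
  | lam A M ihA ihM =>
    intro σ ξ
    simp only [ren, inst, ihA, ihM, inst_congr M (ups_upr_sigma σ ξ)]
  | pi A M ihA ihM =>
    intro σ ξ
    simp only [ren, inst, ihA, ihM, inst_congr M (ups_upr_sigma σ ξ)]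

theorem ren_upr_ups_sigma (ξ : ℕ → ℕ) (σ : ℕ → Tm S) (i : ℕ) :
    ren (upr ξ) (ups σ i) = ups (fun i => ren ξ (σ i)) i := by
  cases i with
  | zero => rfl
  | succ i =>
    simp only [ups, ren_ren]
    exact ren_congr _ (fun j => rfl)

theorem ren_inst (M : Tm S) : ∀ (ξ : ℕ → ℕ) (σ : ℕ → Tm S),
    ren ξ (inst σ M) = inst (fun i => ren ξ (σ i)) M := by
  induction M with
  | var i => intro ξ σ; rfl
  | sort s => intro ξ σ; rfl
  | app M N ihM ihN => intro ξ σ; simp only [ren, inst, ihM, ihN]
  | lam A M ihA ihM =>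
    intro ξ σ
    simp only [ren, inst, ihA, ihM, inst_congr M (ren_upr_ups_sigma ξ σ)]
  | pi A M ihA ihM =>
    intro ξ σ
    simp only [ren, inst, ihA, ihM, inst_congr M (ren_upr_ups_sigma ξ σ)]

theorem inst_ups_ups_sigma (σ τ : ℕ → Tm S) (i : ℕ) :
    inst (ups σ) (ups τ i) = ups (fun i => inst σ (τ i)) i := by
  cases i with
  | zero => rfl
  | succ i =>
    simp only [ups, inst_ren, ren_inst]

theorem inst_inst (M : Tm S) : ∀ (σ τ : ℕ → Tm S),
    inst σ (inst τ M) = inst (fun i => inst σ (τ i)) M := by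
  induction M with
  | var i => intro σ τ; rfl
  | sort s => intro σ τ; rfl
  | app M N ihM ihN => intro σ τ; simp only [inst, ihM, ihN]
  | lam A M ihA ihM =>
    intro σ τ
    simp only [inst, ihA, ihM, inst_congr M (inst_ups_ups_sigma σ τ)]
  | pi A M ihA ihM =>
    intro σ τ
    simp only [inst, ihA, ihM, inst_congr M (inst_ups_ups_sigma σ τ)]

theorem upr_lift_sigma (k i : ℕ) :
    (if i < k + 1 then i else i + 1) = upr (fun i => if i < k then i else i + 1) i := by
  cases i with
  | zero => simp [upr]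
  | succ i =>
    simp only [upr]
    split_ifs <;> omega

theorem lift_eq_ren (M : Tm S) : ∀ k : ℕ, lift k M = ren (fun i => if i < k then i else i + 1) M := by
  induction M with
  | var i =>
    intro k
    simp only [lift, ren]
    split_ifs <;> rfl
  | sort s => intro k; rfl
  | app M N ihM ihN => intro k; simp only [lift, ren, ihM, ihN]
  | lam A M ihA ihM =>
    intro k
    simp only [lift, ren, ihA, ihM, ren_congr M (upr_lift_sigma k)]
  | pi A M ihA ihM =>
    intro k
    simp only [lift, ren, ihA, ihM, ren_congr M (upr_lift_sigma k)]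

theorem lift_zero_eq_ren (M : Tm S) : lift 0 M = ren Nat.succ M := by
  rw [lift_eq_ren]
  exact ren_congr M (fun i => by simp)

theorem shift_eq_ren (n : ℕ) (M : Tm S) : shift n M = ren (fun i => i + n) M := by
  induction n with
  | zero => exact (ren_id M).symm
  | succ n ih =>
    simp only [shift, ih, lift_zero_eq_ren, ren_ren]
    exact ren_congr M (fun i => rfl)

theorem ups_subst_sigma (k : ℕ) (N : Tm S) (i : ℕ) :
    (if i < k + 1 then var i else if i = k + 1 then lift 0 N else var (i - 1) : Tm S)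
      = ups (fun i => if i < k then var i else if i = k then N else var (i - 1)) i := by
  cases i with
  | zero => simp [ups]
  | succ i =>
    simp only [ups]
    split_ifs <;> first
      | rfl
      | omega
      | exact lift_zero_eq_ren N
      | (simp only [ren]; congr 1; omega)

theorem subst_eq_inst (M : Tm S) : ∀ (k : ℕ) (N : Tm S),
    subst k N M = inst (fun i => if i < k then var i else if i = k then N else var (i - 1)) M := by
  induction M with
  | var i => intro k N; rfl
  | sort s => intro k N; rfl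
  | app M N ihM ihN => intro k L; simp only [subst, inst, ihM, ihN]
  | lam A M ihA ihM =>
    intro k L
    simp only [subst, inst, ihA, ihM, inst_congr M (ups_subst_sigma k L)]
  | pi A M ihA ihM =>
    intro k L
    simp only [subst, inst, ihA, ihM, inst_congr M (ups_subst_sigma k L)]

theorem uprn_lt {m j : ℕ} (ξ : ℕ → ℕ) (h : j < m) : uprn m ξ j = j := by
  induction m generalizing j with
  | zero => omega
  | succ m ih =>
    cases j with
    | zero => rfl
    | succ j => simp only [uprn, upr, ih (by omega : j < m)]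

theorem uprn_add (m j : ℕ) (ξ : ℕ → ℕ) : uprn m ξ (j + m) = ξ j + m := by
  induction m with
  | zero => rfl
  | succ m ih =>
    have : j + (m + 1) = (j + m) + 1 := by omega
    rw [this]
    simp only [uprn, upr, ih]
    omega

theorem upsn_lt {m j : ℕ} (σ : ℕ → Tm S) (h : j < m) : upsn m σ j = var j := by
  induction m generalizing j with
  | zero => omega
  | succ m ih =>
    cases j with
    | zero => rfl
    | succ j => simp only [upsn, ups, ih (by omega : j < m), ren]

theorem upsn_add (m j : ℕ) (σ : ℕ → Tm S) : upsn m σ (j + m) = shift m (σ j) := by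
  induction m with
  | zero => rfl
  | succ m ih =>
    have : j + (m + 1) = (j + m) + 1 := by omega
    rw [this]
    simp only [upsn, ups, ih, shift, lift_zero_eq_ren]

/-- Renaming under `k` binders commutes with shifting by `k`. -/
theorem ren_uprn_shift (k : ℕ) (ζ : ℕ → ℕ) (M : Tm S) :
    ren (uprn k ζ) (shift k M) = shift k (ren ζ M) := by
  rw [shift_eq_ren, shift_eq_ren, ren_ren, ren_ren]
  exact ren_congr M (fun i => uprn_add k i ζ)

theorem inst_upsn_shift (k : ℕ) (σ : ℕ → Tm S) (M : Tm S) :
    inst (upsn k σ) (shift k M) = shift k (inst σ M) := by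
  rw [shift_eq_ren, shift_eq_ren, inst_ren, ren_inst]
  exact inst_congr M (fun i => by rw [upsn_add, shift_eq_ren])

theorem Beta.ren {M M' : Tm S} (h : Beta M M') : ∀ ξ : ℕ → ℕ, Beta (Tm.ren ξ M) (Tm.ren ξ M') := by
  induction h with
  | beta A M N =>
    intro ξ
    have h1 : Tm.ren ξ (Tm.subst 0 N M) = Tm.subst 0 (Tm.ren ξ N) (Tm.ren (Tm.upr ξ) M) := by
      rw [subst_eq_inst, subst_eq_inst, ren_inst, inst_ren]
      apply inst_congr
      intro i
      cases i with
      | zero => simp [Tm.upr]
      | succ i => simp [Tm.upr, Tm.ren]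
    rw [h1]
    exact Beta.beta _ _ _
  | appL N _ ih => intro ξ; exact Beta.appL _ (ih ξ)
  | appR M _ ih => intro ξ; exact Beta.appR _ (ih ξ)
  | lamD M _ ih => intro ξ; exact Beta.lamD _ (ih ξ)
  | lamB A _ ih => intro ξ; exact Beta.lamB _ (ih _)
  | piD B _ ih => intro ξ; exact Beta.piD _ (ih ξ)
  | piB A _ ih => intro ξ; exact Beta.piB _ (ih _)

theorem Beta.inst {M M' : Tm S} (h : Beta M M') :
    ∀ σ : ℕ → Tm S, Beta (Tm.inst σ M) (Tm.inst σ M') := by
  induction h with
  | beta A M N =>
    intro σ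
    have h1 : Tm.inst σ (Tm.subst 0 N M) = Tm.subst 0 (Tm.inst σ N) (Tm.inst (Tm.ups σ) M) := by
      rw [subst_eq_inst, subst_eq_inst, inst_inst, inst_inst]
      apply inst_congr
      intro i
      cases i with
      | zero => simp [Tm.ups, Tm.inst]
      | succ i =>
        simp only [Tm.ups, inst_ren]
        simp only [Nat.not_lt_zero, if_false, Nat.succ_ne_zero, Nat.add_sub_cancel, Tm.inst,
          Nat.succ_eq_add_one]
        exact (inst_var _).symm
    rw [h1]
    exact Beta.beta _ _ _
  | appL N _ ih => intro σ; exact Beta.appL _ (ih σ)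
  | appR M _ ih => intro σ; exact Beta.appR _ (ih σ)
  | lamD M _ ih => intro σ; exact Beta.lamD _ (ih σ)
  | lamB A _ ih => intro σ; exact Beta.lamB _ (ih _)
  | piD B _ ih => intro σ; exact Beta.piD _ (ih σ)
  | piB A _ ih => intro σ; exact Beta.piB _ (ih _)

theorem Red.ren {M M' : Tm S} (h : Red M M') (ξ : ℕ → ℕ) : Red (Tm.ren ξ M) (Tm.ren ξ M') := by
  induction h with
  | refl => exact Relation.ReflTransGen.refl
  | tail _ hb ih => exact ih.tail (hb.ren ξ)

theorem Red.inst {M M' : Tm S} (h : Red M M') (σ : ℕ → Tm S) :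
    Red (Tm.inst σ M) (Tm.inst σ M') := by
  induction h with
  | refl => exact Relation.ReflTransGen.refl
  | tail _ hb ih => exact ih.tail (hb.inst σ)

end Vale.Agent.P340
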