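import Vale.Agent.P340.Dep.SimDef

/-!
# Simulation: steps inside an application
-/

namespace Vale.Agent.P340

open Tm

theorem forall2_refl_simApp (l : List (Tm ℕ)) : List.Forall₂ Red l l := by
  induction l with
  | nil => exact List.Forall₂.nil
  | cons a l ih => exact List.Forall₂.cons Relation.ReflTransGen.refl ih

theorem forall2_map_simApp {f g : ℕ → Tm ℕ} (h : ∀ e, Red (f e) (g e)) (l : List ℕ) :
    List.Forall₂ Red (l.map f) (l.map g) := by
  induction l with
  | nil => exact List.Forall₂.nil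
  | cons a l ih => exact List.Forall₂.cons (h a) ih

theorem sim_appL {ℓ : ℕ → ℕ} {M M' : Tm ℕ} (N : Tm ℕ) (h : Sim ℓ M M')
    (hd : deg ℓ M' = deg ℓ M) : Sim ℓ (app M N) (app M' N) := by
  intro env o
  obtain ⟨h1, h2⟩ := h env o
  refine ⟨?_, ?_⟩
  · intro e
    simp only [tr, hd]
    by_cases hg : deg ℓ M < e
    · rw [if_pos hg, if_pos hg]
    · rw [if_neg hg, if_neg hg]
      exact Red.apps (h1 e) (forall2_refl_simApp _)
  · simp only [tr, hd]
    rw [if_neg (Nat.not_lt_zero _), if_neg (Nat.not_lt_zero _)]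
    exact Red1.apps h2 _

theorem sim_appR {ℓ : ℕ → ℕ} (M : Tm ℕ) {N N' : Tm ℕ} (h : Sim ℓ N N')
    (hd : deg ℓ N' = deg ℓ N) : Sim ℓ (app M N) (app M N') := by
  intro env o
  obtain ⟨h1, h2⟩ := h env o
  refine ⟨?_, ?_⟩
  · intro e
    simp only [tr, hd]
    by_cases hg : deg ℓ M < e
    · rw [if_pos hg, if_pos hg]
    · rw [if_neg hg, if_neg hg]
      exact Red.apps Relation.ReflTransGen.refl (forall2_map_simApp h1 _)
  · simp only [tr, hd]
    rw [if_neg (Nat.not_lt_zero _), if_neg (Nat.not_lt_zero _)]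
    rw [lvls_eq_append (Nat.zero_le (deg ℓ N)), List.map_append, List.map_append]
    simp only [List.map_cons, List.map_nil]
    refine Red1.of_red_left (N := apps (tr M 0 ℓ env o)
      ((lvls (0 + 1) (deg ℓ N)).map (fun e' => tr N' e' ℓ env o) ++ [tr N 0 ℓ env o])) ?_ ?_
    · refine Red.apps Relation.ReflTransGen.refl ?_
      exact List.rel_append (forall2_map_simApp h1 _)
        (List.Forall₂.cons Relation.ReflTransGen.refl List.Forall₂.nil)
    · exact Red1.apps_last _ _ h2

end Vale.Agent.P340
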