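import Vale.Agent.P340.Dep.TransSyn2

/-!
# Simulation of a reduction step by the shadows: definition
-/

namespace Vale.Agent.P340

open Tm

/-- Every shadow of `M` reduces to the corresponding shadow of `M'`, in at least one step for the
shadows of degree `0`. -/
def Sim (ℓ : ℕ → ℕ) (M M' : Tm ℕ) : Prop :=
  ∀ (env : ℕ → ℕ → ℕ) (o : ℕ → ℕ),
    (∀ e, Red (tr M e ℓ env o) (tr M' e ℓ env o)) ∧ Red1 (tr M 0 ℓ env o) (tr M' 0 ℓ env o)

end Vale.Agent.P340
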