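import Vale.Agent.P340.Dep.SimDef

/-!
# Simulation: steps inside an abstraction
-/

namespace Vale.Agent.P340

open Tm

theorem forall2_map_simLam (l : List ℕ) (f g : ℕ → Tm ℕ) (h : ∀ x, Red (f x) (g x)) :
    List.Forall₂ Red (l.map f) (l.map g) := by
  induction l with
  | nil => exact List.Forall₂.nil
  | cons a l ih => exact List.Forall₂.cons (h a) ih

theorem sim_lamD {ℓ : ℕ → ℕ} {A A' : Tm ℕ} (M : Tm ℕ) (h : Sim ℓ A A')
    (hd : deg ℓ A' = deg ℓ A) : Sim ℓ (lam A M) (lam A' M) := by
  intro env o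
  obtain ⟨hr, h1⟩ := h env o
  refine ⟨fun e => ?_, ?_⟩
  · simp only [tr, hd]
    split_ifs with hg
    · exact Relation.ReflTransGen.refl
    · unfold trLam
      split_ifs with he
      · exact Red.app (Red.lam Relation.ReflTransGen.refl
          (Red.lift (Red.lamsFrom Relation.ReflTransGen.refl 0
            (forall2_map_simLam _ _ _ (fun x => hr (x + 1)))) 0)) (hr 0)
      · exact Red.lamsFrom Relation.ReflTransGen.refl 0
          (forall2_map_simLam _ _ _ (fun x => hr (x + 1)))
  · simp only [tr, hd, Nat.not_lt_zero, if_false]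
    unfold trLam
    simp only [if_true]
    refine Red1.of_red_left (Red.appL _ (Red.lam Relation.ReflTransGen.refl
          (Red.lift (Red.lamsFrom Relation.ReflTransGen.refl 0
            (forall2_map_simLam _ _ _ (fun x => hr (x + 1)))) 0))) ?_
    exact Red1.appR _ h1

theorem sim_lamB {ℓ : ℕ → ℕ} (A : Tm ℕ) {M M' : Tm ℕ} (h : Sim (scons (deg ℓ A - 1) ℓ) M M')
    (hd : deg (scons (deg ℓ A - 1) ℓ) M' = deg (scons (deg ℓ A - 1) ℓ) M) :
    Sim ℓ (lam A M) (lam A M') := by
  intro env o
  refine ⟨fun e => ?_, ?_⟩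
  · obtain ⟨hr, -⟩ := h (econs e (deg ℓ A - 1 + 1 - e) env) (fun x => o x + (deg ℓ A - 1 + 1 - e))
    simp only [tr, hd]
    split_ifs with hg
    · exact Relation.ReflTransGen.refl
    · unfold trLam
      split_ifs with he
      · exact Red.appL _ (Red.lam Relation.ReflTransGen.refl
          (Red.lift (Red.lamsFrom (hr e) 0
            (forall2_map_simLam _ _ _ (fun x => Relation.ReflTransGen.refl))) 0))
      · exact Red.lamsFrom (hr e) 0
          (forall2_map_simLam _ _ _ (fun x => Relation.ReflTransGen.refl))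
  · obtain ⟨-, h1⟩ := h (econs 0 (deg ℓ A - 1 + 1 - 0) env) (fun x => o x + (deg ℓ A - 1 + 1 - 0))
    simp only [tr, hd, Nat.not_lt_zero, if_false]
    unfold trLam
    simp only [if_true]
    exact Red1.appL _ (Red1.lamB _ (Red1.lift (Red1.lamsFrom 0 _ h1) 0))

end Vale.Agent.P340
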