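import Vale.Agent.P340.Dep.SimDef

/-!
# Simulation: steps inside a product
-/

namespace Vale.Agent.P340

open Tm

theorem forall2_map_simPi {tA tA' : ℕ → Tm ℕ} (hA : ∀ e', Red (tA e') (tA' e')) (l : List ℕ) :
    List.Forall₂ Red (l.map fun e' => tA (e' + 1)) (l.map fun e' => tA' (e' + 1)) := by
  induction l with
  | nil => exact List.Forall₂.nil
  | cons a l ih => exact List.Forall₂.cons (hA _) ih

theorem trPi_red_simPi (o : ℕ → ℕ) (e d : ℕ) {tA tA' : ℕ → Tm ℕ} {b b' : Tm ℕ}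
    (hA : ∀ e', Red (tA e') (tA' e')) (hb : Red b b') :
    Red (trPi o e d tA b) (trPi o e d tA' b') := by
  unfold trPi
  split_ifs with he
  · refine Red.app (Red.app (Red.lam Relation.ReflTransGen.refl
      (Red.lam ?_ Relation.ReflTransGen.refl)) (hA 0)) ?_
    · exact Red.shift_tele (Red.pisFrom Relation.ReflTransGen.refl 0 (forall2_map_simPi hA _)) 1
    · exact Red.lamsFrom hb 0 (forall2_map_simPi hA _)
  · exact Red.pisFrom hb 0 (forall2_map_simPi hA _)

theorem trPi_red1D_simPi (o : ℕ → ℕ) (d : ℕ) {tA tA' : ℕ → Tm ℕ} (b : Tm ℕ)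
    (hA : ∀ e', Red (tA e') (tA' e')) (h0 : Red1 (tA 0) (tA' 0)) :
    Red1 (trPi o 0 d tA b) (trPi o 0 d tA' b) := by
  unfold trPi
  rw [if_pos rfl, if_pos rfl]
  refine Red1.of_red_right (Red1.appL _ (Red1.appR _ h0)) ?_
  refine Red.app (Red.app (Red.lam Relation.ReflTransGen.refl
      (Red.lam ?_ Relation.ReflTransGen.refl)) Relation.ReflTransGen.refl) ?_
  · exact Red.shift_tele (Red.pisFrom Relation.ReflTransGen.refl 0 (forall2_map_simPi hA _)) 1
  · exact Red.lamsFrom Relation.ReflTransGen.refl 0 (forall2_map_simPi hA _)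

theorem trPi_red1B_simPi (o : ℕ → ℕ) (d : ℕ) (tA : ℕ → Tm ℕ) {b b' : Tm ℕ} (h : Red1 b b') :
    Red1 (trPi o 0 d tA b) (trPi o 0 d tA b') := by
  unfold trPi
  rw [if_pos rfl, if_pos rfl]
  exact Red1.appR _ (Red1.lamsFrom 0 _ h)

theorem sim_piD {ℓ : ℕ → ℕ} {A A' : Tm ℕ} (B : Tm ℕ) (h : Sim ℓ A A')
    (hd : deg ℓ A' = deg ℓ A) : Sim ℓ (pi A B) (pi A' B) := by
  intro env o
  have hA : ∀ e', Red (tr A e' ℓ env o) (tr A' e' ℓ env o) := (h env o).1
  refine ⟨?_, ?_⟩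
  · intro e
    simp only [tr, hd]
    split_ifs with he
    · exact Relation.ReflTransGen.refl
    · exact trPi_red_simPi o e _ hA Relation.ReflTransGen.refl
  · simp only [tr, hd]
    rw [if_neg (Nat.not_lt_zero _), if_neg (Nat.not_lt_zero _)]
    exact trPi_red1D_simPi o _ _ hA (h env o).2

theorem sim_piB {ℓ : ℕ → ℕ} (A : Tm ℕ) {B B' : Tm ℕ} (h : Sim (scons (deg ℓ A - 1) ℓ) B B')
    (hd : deg (scons (deg ℓ A - 1) ℓ) B' = deg (scons (deg ℓ A - 1) ℓ) B) :
    Sim ℓ (pi A B) (pi A B') := by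
  intro env o
  refine ⟨?_, ?_⟩
  · intro e
    simp only [tr, hd]
    split_ifs with he
    · exact Relation.ReflTransGen.refl
    · exact trPi_red_simPi o e _ (fun _ => Relation.ReflTransGen.refl) ((h _ _).1 e)
  · simp only [tr, hd]
    rw [if_neg (Nat.not_lt_zero _), if_neg (Nat.not_lt_zero _)]
    exact trPi_red1B_simPi o _ _ (h _ _).2

end Vale.Agent.P340
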