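import Vale.Agent.P340.Dep.SimDef

/-!
# Simulation: contraction of a redex
-/

namespace Vale.Agent.P340

open Tm

/-- Out of range the shadow is the dummy. -/
theorem tr_of_deg_lt_simRedex (X : Tm ℕ) (e : ℕ) (ℓ : ℕ → ℕ) (env : ℕ → ℕ → ℕ) (o : ℕ → ℕ)
    (h : deg ℓ X < e) : tr X e ℓ env o = sort 0 := by
  cases X with
  | var i => simp only [deg] at h; simp only [tr, if_pos h]
  | sort k => simp only [deg] at h; simp only [tr, if_pos h]
  | app M N => simp only [deg] at h; simp only [tr, if_pos h]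
  | lam A M => simp only [deg] at h; simp only [tr, if_pos h]
  | pi A B => simp only [deg] at h; simp only [tr, if_pos h]

/-- The shadow of a redex, in range, positive degree. -/
theorem red_pos_simRedex (ℓ : ℕ → ℕ) (A M N : Tm ℕ) (h : deg ℓ N = deg ℓ A - 1)
    (env : ℕ → ℕ → ℕ) (o : ℕ → ℕ) (e : ℕ) (he : e ≠ 0)
    (hd : ¬ deg (scons (deg ℓ N) ℓ) M < e) :
    Red (tr (app (lam A M) N) e ℓ env o) (tr (subst 0 N M) e ℓ env o) := by
  rw [tr_subst_zero M N e e ℓ env o le_rfl]
  simp only [tr, deg, ← h, if_neg hd, trLam, if_neg he]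
  apply apps_lamsFrom_red
  simp only [List.length_map]

/-- The shadow of degree zero of a redex. -/
theorem red_zero_simRedex (ℓ : ℕ → ℕ) (A M N : Tm ℕ) (h : deg ℓ N = deg ℓ A - 1)
    (env : ℕ → ℕ → ℕ) (o : ℕ → ℕ) :
    Red1 (tr (app (lam A M) N) 0 ℓ env o) (tr (subst 0 N M) 0 ℓ env o) := by
  rw [tr_subst_zero M N 0 0 ℓ env o le_rfl]
  simp only [tr, deg, ← h, Nat.not_lt_zero, if_false, trLam, if_true]
  refine Red1.of_red_right (Red1.apps (Relation.TransGen.single (Beta.beta _ _ _)) _) ?_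
  rw [subst_lift]
  apply apps_lamsFrom_red
  simp only [List.length_map]

theorem sim_redex (ℓ : ℕ → ℕ) (A M N : Tm ℕ) (h : deg ℓ N = deg ℓ A - 1) :
    Sim ℓ (app (lam A M) N) (subst 0 N M) := by
  intro env o
  refine ⟨?_, red_zero_simRedex ℓ A M N h env o⟩
  intro e
  by_cases he : e = 0
  · subst he
    exact (red_zero_simRedex ℓ A M N h env o).red
  · by_cases hd : deg (scons (deg ℓ N) ℓ) M < e
    · have h1 : tr (subst 0 N M) e ℓ env o = sort 0 :=
        tr_of_deg_lt_simRedex _ e ℓ env o (by rw [deg_subst_zero]; exact hd)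
      have h2 : tr (app (lam A M) N) e ℓ env o = sort 0 :=
        tr_of_deg_lt_simRedex _ e ℓ env o (by simp only [deg, ← h]; exact hd)
      rw [h1, h2]
    · exact red_pos_simRedex ℓ A M N h env o e he hd

end Vale.Agent.P340
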