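import Vale.Agent.P340.Dep.Sigma

/-!
# Telescopes: iterated applications, abstractions and products (syntactic part)

In `lamsFrom k Ds b`, `pisFrom k Ds b` and `extFrom k Ds Δ` all the domains in the list `Ds` live in
one and the same base context; the domain number `r` is shifted by `k + r` when it is put in place.
The first element of the list is the outermost binder.
-/

namespace Vale.Agent.P340

open Tm

universe u

variable {S : Type u}

/-- One or more reduction steps. -/
abbrev Red1 {S : Type u} : Tm S → Tm S → Prop := Relation.TransGen Beta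

/-- Iterated application `F N₁ ... Nₘ`. -/
def apps : Tm S → List (Tm S) → Tm S
  | F, [] => F
  | F, N :: Ns => apps (app F N) Ns

/-- Iterated abstraction. -/
def lamsFrom : ℕ → List (Tm S) → Tm S → Tm S
  | _, [], b => b
  | k, D :: Ds, b => lam (shift k D) (lamsFrom (k + 1) Ds b)

/-- Iterated product. -/
def pisFrom : ℕ → List (Tm S) → Tm S → Tm S
  | _, [], b => b
  | k, D :: Ds, b => pi (shift k D) (pisFrom (k + 1) Ds b)

/-- Extension of a context by a telescope. -/
def extFrom : ℕ → List (Tm S) → List (Tm S) → List (Tm S)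
  | _, [], Δ => Δ
  | k, D :: Ds, Δ => extFrom (k + 1) Ds (shift k D :: Δ)

/-- The parallel substitution that fills the `m` innermost variables with the arguments
`Ns = [N₁, ..., Nₘ]` (index `0` receives the last one) and lowers the other indices by `m`. -/
def tsub (Ns : List (Tm S)) : ℕ → Tm S :=
  fun j => (Ns.reverse[j]?).getD (var (j - Ns.length))

theorem tsub_lt (Ns : List (Tm S)) {j : ℕ} (h : j < Ns.length) :
    tsub Ns j = Ns[Ns.length - 1 - j]'(by omega) := by
  unfold tsub
  rw [List.getElem?_reverse h, List.getElem?_eq_getElem (by omega), Option.getD_some]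

theorem tsub_add (Ns : List (Tm S)) (j : ℕ) : tsub Ns (j + Ns.length) = var j := by
  unfold tsub
  rw [List.getElem?_eq_none (by simp), Option.getD_none, Nat.add_sub_cancel]

theorem apps_append (F : Tm S) (Ns Ns' : List (Tm S)) :
    apps F (Ns ++ Ns') = apps (apps F Ns) Ns' := by
  induction Ns generalizing F with
  | nil => rfl
  | cons N Ns ih => exact ih _

theorem ren_apps (ζ : ℕ → ℕ) (Ns : List (Tm S)) : ∀ F : Tm S,
    ren ζ (apps F Ns) = apps (ren ζ F) (Ns.map (ren ζ)) := by
  induction Ns with
  | nil => intro F; rfl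
  | cons N Ns ih => intro F; simp only [apps, List.map_cons, ih, ren]

theorem inst_apps (σ : ℕ → Tm S) (Ns : List (Tm S)) : ∀ F : Tm S,
    inst σ (apps F Ns) = apps (inst σ F) (Ns.map (inst σ)) := by
  induction Ns with
  | nil => intro F; rfl
  | cons N Ns ih => intro F; simp only [apps, List.map_cons, ih, inst]

theorem ren_lamsFrom (ζ : ℕ → ℕ) (Ds : List (Tm S)) : ∀ (k : ℕ) (b : Tm S),
    ren (uprn k ζ) (lamsFrom k Ds b) =
      lamsFrom k (Ds.map (ren ζ)) (ren (uprn (k + Ds.length) ζ) b) := by
  induction Ds with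
  | nil => intro k b; rfl
  | cons D Ds ih =>
    intro k b
    have h := ih (k + 1) b
    have e : k + 1 + Ds.length = k + (D :: Ds).length := by simp only [List.length_cons]; omega
    rw [e] at h
    simp only [lamsFrom, List.map_cons, ren, ren_uprn_shift]
    rw [← h]
    rfl

theorem ren_pisFrom (ζ : ℕ → ℕ) (Ds : List (Tm S)) : ∀ (k : ℕ) (b : Tm S),
    ren (uprn k ζ) (pisFrom k Ds b) =
      pisFrom k (Ds.map (ren ζ)) (ren (uprn (k + Ds.length) ζ) b) := by
  induction Ds with
  | nil => intro k b; rfl
  | cons D Ds ih =>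
    intro k b
    have h := ih (k + 1) b
    have e : k + 1 + Ds.length = k + (D :: Ds).length := by simp only [List.length_cons]; omega
    rw [e] at h
    simp only [pisFrom, List.map_cons, ren, ren_uprn_shift]
    rw [← h]
    rfl

theorem inst_lamsFrom (σ : ℕ → Tm S) (Ds : List (Tm S)) : ∀ (k : ℕ) (b : Tm S),
    inst (upsn k σ) (lamsFrom k Ds b) =
      lamsFrom k (Ds.map (inst σ)) (inst (upsn (k + Ds.length) σ) b) := by
  induction Ds with
  | nil => intro k b; rfl
  | cons D Ds ih =>
    intro k b
    have h := ih (k + 1) b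
    have e : k + 1 + Ds.length = k + (D :: Ds).length := by simp only [List.length_cons]; omega
    rw [e] at h
    simp only [lamsFrom, List.map_cons, inst, inst_upsn_shift]
    rw [← h]
    rfl

theorem inst_pisFrom (σ : ℕ → Tm S) (Ds : List (Tm S)) : ∀ (k : ℕ) (b : Tm S),
    inst (upsn k σ) (pisFrom k Ds b) =
      pisFrom k (Ds.map (inst σ)) (inst (upsn (k + Ds.length) σ) b) := by
  induction Ds with
  | nil => intro k b; rfl
  | cons D Ds ih =>
    intro k b
    have h := ih (k + 1) b
    have e : k + 1 + Ds.length = k + (D :: Ds).length := by simp only [List.length_cons]; omega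
    rw [e] at h
    simp only [pisFrom, List.map_cons, inst, inst_upsn_shift]
    rw [← h]
    rfl

theorem extFrom_length (Ds : List (Tm S)) : ∀ (k : ℕ) (Δ : List (Tm S)),
    (extFrom k Ds Δ).length = Δ.length + Ds.length := by
  induction Ds with
  | nil => intro k Δ; rfl
  | cons D Ds ih =>
    intro k Δ
    simp only [extFrom, ih, List.length_cons]
    omega

theorem extFrom_drop (Ds : List (Tm S)) : ∀ (k : ℕ) (Δ : List (Tm S)),
    (extFrom k Ds Δ).drop Ds.length = Δ := by
  induction Ds with
  | nil => intro k Δ; rfl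
  | cons D Ds ih =>
    intro k Δ
    have h := ih (k + 1) (shift k D :: Δ)
    simp only [extFrom, List.length_cons]
    rw [← List.drop_drop, h]
    rfl

/-- The declaration of the variable bound by the domain number `r` of the telescope. -/
theorem extFrom_get (Ds : List (Tm S)) : ∀ (k : ℕ) (Δ : List (Tm S)) (r : ℕ) (h : r < Ds.length),
    (extFrom k Ds Δ)[Ds.length - 1 - r]? = some (shift (k + r) Ds[r]) := by
  induction Ds with
  | nil => intro k Δ r h; simp at h
  | cons D Ds ih =>
    intro k Δ r h
    cases r with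
    | zero =>
      have h1 := extFrom_drop Ds (k + 1) (shift k D :: Δ)
      have h2 : ((extFrom (k + 1) Ds (shift k D :: Δ)).drop Ds.length)[0]?
          = some (shift k D) := by rw [h1]; rfl
      rw [List.getElem?_drop] at h2
      simpa [extFrom] using h2
    | succ r =>
      have hr : r < Ds.length := by simpa using h
      have h1 := ih (k + 1) (shift k D :: Δ) r hr
      have e1 : (D :: Ds).length - 1 - (r + 1) = Ds.length - 1 - r := by
        simp only [List.length_cons]; omega
      have e2 : k + (r + 1) = k + 1 + r := by omega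
      rw [e1, e2]
      simpa [extFrom] using h1

/-! ### Reduction -/

theorem Red.apps {F F' : Tm S} (h : Red F F') : ∀ {Ns Ns' : List (Tm S)},
    List.Forall₂ Red Ns Ns' → Red (Vale.Agent.P340.apps F Ns) (Vale.Agent.P340.apps F' Ns') := by
  intro Ns Ns' hN
  induction hN generalizing F F' with
  | nil => exact h
  | cons h1 _ ih => exact ih (Red.app h h1)

theorem Red.shift_tele {M M' : Tm S} (h : Red M M') (k : ℕ) :
    Red (Tm.shift k M) (Tm.shift k M') := by
  rw [shift_eq_ren, shift_eq_ren]
  exact h.ren _

theorem Red.lamsFrom {b b' : Tm S} (h : Red b b') : ∀ {Ds Ds' : List (Tm S)} (k : ℕ),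
    List.Forall₂ Red Ds Ds' →
      Red (Vale.Agent.P340.lamsFrom k Ds b) (Vale.Agent.P340.lamsFrom k Ds' b') := by
  intro Ds Ds' k hD
  induction hD generalizing k with
  | nil => exact h
  | cons h1 _ ih => exact Red.lam (h1.shift_tele k) (ih (k + 1))

theorem Red.pisFrom {b b' : Tm S} (h : Red b b') : ∀ {Ds Ds' : List (Tm S)} (k : ℕ),
    List.Forall₂ Red Ds Ds' →
      Red (Vale.Agent.P340.pisFrom k Ds b) (Vale.Agent.P340.pisFrom k Ds' b') := by
  intro Ds Ds' k hD
  induction hD generalizing k with
  | nil => exact h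
  | cons h1 _ ih => exact Red.pi (h1.shift_tele k) (ih (k + 1))

theorem Red1.of_red_left {M N L : Tm S} (h : Red M N) (h' : Red1 N L) : Red1 M L :=
  Relation.TransGen.trans_right h h'

theorem Red1.of_red_right {M N L : Tm S} (h : Red1 M N) (h' : Red N L) : Red1 M L :=
  Relation.TransGen.trans_left h h'

theorem Red1.red {M N : Tm S} (h : Red1 M N) : Red M N :=
  Relation.TransGen.to_reflTransGen h

theorem Red1.map_tele (f : Tm S → Tm S) (hf : ∀ a b, Beta a b → Beta (f a) (f b)) {M M' : Tm S}
    (h : Red1 M M') : Red1 (f M) (f M') := by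
  induction h with
  | single hb => exact Relation.TransGen.single (hf _ _ hb)
  | tail _ hb ih => exact ih.tail (hf _ _ hb)

theorem Red1.appL {M M' : Tm S} (N : Tm S) (h : Red1 M M') : Red1 (Tm.app M N) (Tm.app M' N) :=
  Red1.map_tele (fun M => Tm.app M N) (fun _ _ hb => Beta.appL N hb) h

theorem Red1.appR (M : Tm S) {N N' : Tm S} (h : Red1 N N') : Red1 (Tm.app M N) (Tm.app M N') :=
  Red1.map_tele (fun N => Tm.app M N) (fun _ _ hb => Beta.appR M hb) h

theorem Red1.lamD {A A' : Tm S} (M : Tm S) (h : Red1 A A') : Red1 (Tm.lam A M) (Tm.lam A' M) :=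
  Red1.map_tele (fun A => Tm.lam A M) (fun _ _ hb => Beta.lamD M hb) h

theorem Red1.lamB (A : Tm S) {M M' : Tm S} (h : Red1 M M') : Red1 (Tm.lam A M) (Tm.lam A M') :=
  Red1.map_tele (fun M => Tm.lam A M) (fun _ _ hb => Beta.lamB A hb) h

theorem Red1.lift {M M' : Tm S} (h : Red1 M M') (k : ℕ) : Red1 (Tm.lift k M) (Tm.lift k M') :=
  Red1.map_tele (fun M => Tm.lift k M) (fun _ _ hb => hb.lift k) h

theorem Red1.apps {F F' : Tm S} (h : Red1 F F') (Ns : List (Tm S)) :
    Red1 (Vale.Agent.P340.apps F Ns) (Vale.Agent.P340.apps F' Ns) := by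
  induction Ns generalizing F F' with
  | nil => exact h
  | cons N Ns ih => exact ih (h.appL N)

/-- A proper reduction in the last argument. -/
theorem Red1.apps_last (F : Tm S) (Ns : List (Tm S)) {N N' : Tm S} (h : Red1 N N') :
    Red1 (Vale.Agent.P340.apps F (Ns ++ [N])) (Vale.Agent.P340.apps F (Ns ++ [N'])) := by
  rw [apps_append, apps_append]
  exact Red1.appR _ h

theorem Red1.lamsFrom (k : ℕ) (Ds : List (Tm S)) {b b' : Tm S} (h : Red1 b b') :
    Red1 (Vale.Agent.P340.lamsFrom k Ds b) (Vale.Agent.P340.lamsFrom k Ds b') := by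
  induction Ds generalizing k with
  | nil => exact h
  | cons D Ds ih => exact Red1.lamB _ (ih (k + 1))

/-- Iterated abstraction over a list of domains that are already in place. -/
def lamsRaw_tele : List (Tm S) → Tm S → Tm S
  | [], b => b
  | D :: Ds, b => lam D (lamsRaw_tele Ds b)

theorem lamsFrom_eq_raw_tele (Ds : List (Tm S)) : ∀ (k : ℕ) (b : Tm S),
    ∃ Ds' : List (Tm S), Ds'.length = Ds.length ∧ lamsFrom k Ds b = lamsRaw_tele Ds' b := by
  induction Ds with
  | nil => intro k b; exact ⟨[], rfl, rfl⟩
  | cons D Ds ih =>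
    intro k b
    obtain ⟨Ds', h1, h2⟩ := ih (k + 1) b
    exact ⟨shift k D :: Ds', by simp [h1], by simp only [lamsFrom, lamsRaw_tele, h2]⟩

theorem upsn_ups_tele (n : ℕ) (σ : ℕ → Tm S) : upsn n (ups σ) = ups (upsn n σ) := by
  induction n with
  | zero => rfl
  | succ n ih => simp only [upsn, ih]

theorem inst_lamsRaw_tele (Ds : List (Tm S)) : ∀ (σ : ℕ → Tm S) (b : Tm S),
    ∃ Ds' : List (Tm S), Ds'.length = Ds.length ∧
      inst σ (lamsRaw_tele Ds b) = lamsRaw_tele Ds' (inst (upsn Ds.length σ) b) := by
  induction Ds with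
  | nil => intro σ b; exact ⟨[], rfl, rfl⟩
  | cons D Ds ih =>
    intro σ b
    obtain ⟨Ds', h1, h2⟩ := ih (ups σ) b
    refine ⟨inst σ D :: Ds', by simp [h1], ?_⟩
    simp only [lamsRaw_tele, inst, h2, List.length_cons, upsn, upsn_ups_tele]

theorem tsub_nil_tele (j : ℕ) : tsub ([] : List (Tm S)) j = var j := tsub_add [] j

theorem tsub_cons_lt_tele (N : Tm S) (Ns : List (Tm S)) {j : ℕ} (h : j < Ns.length) :
    tsub (N :: Ns) j = tsub Ns j := by
  unfold tsub
  rw [List.reverse_cons, List.getElem?_append_left (by simpa using h),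
    List.getElem?_eq_getElem (by simpa using h), Option.getD_some, Option.getD_some]

theorem tsub_cons_eq_tele (N : Tm S) (Ns : List (Tm S)) : tsub (N :: Ns) Ns.length = N := by
  rw [tsub_lt (N :: Ns) (by simp)]
  simp

theorem tsub_step_tele (N : Tm S) (Ns : List (Tm S)) (i : ℕ) :
    inst (tsub Ns) (upsn Ns.length
      (fun i => if i < 0 then var i else if i = 0 then N else var (i - 1)) i)
      = tsub (N :: Ns) i := by
  rcases Nat.lt_or_ge i Ns.length with h | h
  · rw [upsn_lt _ h, tsub_cons_lt_tele N Ns h]
    rfl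
  · obtain ⟨j, rfl⟩ : ∃ j, i = j + Ns.length := ⟨i - Ns.length, by omega⟩
    rw [upsn_add]
    cases j with
    | zero =>
      simp only [Nat.lt_irrefl, if_false, if_true, Nat.zero_add]
      rw [tsub_cons_eq_tele, shift_eq_ren, inst_ren]
      rw [inst_congr N (fun i => tsub_add Ns i), inst_var]
    | succ j =>
      have e : j + 1 + Ns.length = j + (N :: Ns).length := by
        simp only [List.length_cons]; omega
      rw [e, tsub_add]
      simp only [Nat.not_lt_zero, if_false, Nat.succ_ne_zero, Nat.add_sub_cancel, shift_var,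
        inst, tsub_add]

theorem apps_lamsRaw_red_tele (n : ℕ) : ∀ (Ds : List (Tm S)) (b : Tm S) (Ns : List (Tm S)),
    Ds.length = n → Ns.length = n → Red (apps (lamsRaw_tele Ds b) Ns) (inst (tsub Ns) b) := by
  induction n with
  | zero =>
    intro Ds b Ns h1 h2
    obtain rfl := List.length_eq_zero_iff.mp h1
    obtain rfl := List.length_eq_zero_iff.mp h2
    rw [inst_congr b tsub_nil_tele, inst_var]
    exact Relation.ReflTransGen.refl
  | succ n ih =>
    intro Ds b Ns h1 h2
    cases Ds with
    | nil => simp at h1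
    | cons D Ds =>
      cases Ns with
      | nil => simp at h2
      | cons N Ns =>
        have h1' : Ds.length = n := by simpa using h1
        have h2' : Ns.length = n := by simpa using h2
        have hstep : Red (app (lam D (lamsRaw_tele Ds b)) N) (subst 0 N (lamsRaw_tele Ds b)) :=
          Relation.ReflTransGen.single (Beta.beta _ _ _)
        have hrefl : List.Forall₂ Red Ns Ns :=
          List.forall₂_same.mpr (fun _ _ => Relation.ReflTransGen.refl)
        have h3 := Red.apps hstep hrefl
        rw [subst_eq_inst] at h3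
        obtain ⟨Ds', h4, h5⟩ := inst_lamsRaw_tele Ds
          (fun i => if i < 0 then var i else if i = 0 then N else var (i - 1)) b
        rw [h5] at h3
        have h6 := ih Ds' (inst (upsn Ds.length
          (fun i => if i < 0 then var i else if i = 0 then N else var (i - 1))) b) Ns
          (h4.trans h1') h2'
        have e : Ds.length = Ns.length := h1'.trans h2'.symm
        rw [e] at h3 h6
        rw [inst_inst, inst_congr b (tsub_step_tele N Ns)] at h6
        exact h3.trans h6

/-- Contracting a telescope of redexes. -/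
theorem apps_lamsFrom_red (Ds : List (Tm S)) : ∀ (k : ℕ) (b : Tm S) (Ns : List (Tm S)),
    Ns.length = Ds.length → Red (apps (lamsFrom k Ds b) Ns) (inst (tsub Ns) b) := by
  intro k b Ns h
  obtain ⟨Ds', h1, h2⟩ := lamsFrom_eq_raw_tele Ds k b
  rw [h2]
  exact apps_lamsRaw_red_tele Ds.length Ds' b Ns h1 h

end Vale.Agent.P340
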