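import Vale.Agent.P340.Dep.TeleTy

/-!
# Telescopes: one more typing lemma
-/

namespace Vale.Agent.P340

open Tm

universe u

variable {S : Type u}

/-- Introduction of an iterated abstraction, given that the iterated product is a type. -/
theorem typing_lamsFrom_of_pis {P : Spec S} (Ds : List (Tm S)) : ∀ (k : ℕ) (Δ : List (Tm S))
    (b T : Tm S) (c : S), Typing P Δ (pisFrom k Ds T) (sort c) →
    Typing P (extFrom k Ds Δ) b T → Typing P Δ (lamsFrom k Ds b) (pisFrom k Ds T) := by
  induction Ds with
  | nil => intro k Δ b T c _ hb; exact hb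
  | cons D Ds ih =>
    intro k Δ b T c hpi hb
    obtain ⟨_, s₂, _, _, _, hB, _⟩ :=
      Typing.gen_pi (A := shift k D) (B := pisFrom (k + 1) Ds T) hpi
    exact Typing.abs (ih (k + 1) (shift k D :: Δ) b T s₂ hB hb) hpi

end Vale.Agent.P340
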