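import Vale.Agent.P340.Dep.Sigma

/-!
# Tiered specifications and the degree of a term

The sorts of the tiered specification `tiered n ρ` are `0, ..., n - 1` (the natural numbers `≥ n`
play no role), with `ax k (k + 1)`, and the rules are the triples `(i, j, j)` with `ρ i j`.

Degrees: `deg (sort k) = k + 2`; a type of sort `k` has degree `k + 1`, its inhabitants degree `k`.
A function `ℓ : ℕ → ℕ` gives the degrees of the variables.
-/

namespace Vale.Agent.P340

open Tm

/-- The tiered specification with `n` sorts and the rules `(i, j, j)`, `ρ i j`. -/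
def tiered (n : ℕ) (ρ : ℕ → ℕ → Prop) : Spec ℕ where
  ax i j := j = i + 1 ∧ j < n
  rule i j k := k = j ∧ i < n ∧ j < n ∧ ρ i j

/-- Add a value at index `0` of a sequence. -/
def scons (d : ℕ) (ℓ : ℕ → ℕ) : ℕ → ℕ
  | 0 => d
  | i + 1 => ℓ i

/-- The degree of a term, given the degrees of its variables. -/
def deg : (ℕ → ℕ) → Tm ℕ → ℕ
  | ℓ, var i => ℓ i
  | _, sort k => k + 2
  | ℓ, app M _ => deg ℓ M
  | ℓ, lam A M => deg (scons (deg ℓ A - 1) ℓ) M
  | ℓ, pi A B => deg (scons (deg ℓ A - 1) ℓ) B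

/-- The degrees of the variables of a context. -/
def degs : List (Tm ℕ) → ℕ → ℕ
  | [] => fun _ => 0
  | A :: Γ => scons (deg (degs Γ) A - 1) (degs Γ)

theorem deg_congr (M : Tm ℕ) : ∀ {ℓ ℓ' : ℕ → ℕ}, (∀ i, ℓ i = ℓ' i) → deg ℓ M = deg ℓ' M := by
  intro ℓ ℓ' h
  have : ℓ = ℓ' := funext h
  rw [this]

theorem deg_ren (M : Tm ℕ) : ∀ {ℓ ℓ' : ℕ → ℕ} {ξ : ℕ → ℕ}, (∀ i, ℓ' (ξ i) = ℓ i) →
    deg ℓ' (ren ξ M) = deg ℓ M := by
  induction M with
  | var i => intro ℓ ℓ' ξ h; exact h i
  | sort s => intro ℓ ℓ' ξ _; rfl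
  | app M N ihM _ => intro ℓ ℓ' ξ h; exact ihM h
  | lam A M ihA ihM =>
    intro ℓ ℓ' ξ h
    simp only [ren, deg]
    apply ihM
    intro i
    cases i with
    | zero => simp only [upr, scons]; rw [ihA h]
    | succ i => simp only [upr, scons]; exact h i
  | pi A M ihA ihM =>
    intro ℓ ℓ' ξ h
    simp only [ren, deg]
    apply ihM
    intro i
    cases i with
    | zero => simp only [upr, scons]; rw [ihA h]
    | succ i => simp only [upr, scons]; exact h i

theorem deg_inst (M : Tm ℕ) : ∀ {ℓ ℓ' : ℕ → ℕ} {σ : ℕ → Tm ℕ}, (∀ i, deg ℓ' (σ i) = ℓ i) →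
    deg ℓ' (inst σ M) = deg ℓ M := by
  induction M with
  | var i => intro ℓ ℓ' σ h; exact h i
  | sort s => intro ℓ ℓ' σ _; rfl
  | app M N ihM _ => intro ℓ ℓ' σ h; exact ihM h
  | lam A M ihA ihM =>
    intro ℓ ℓ' σ h
    simp only [inst, deg]
    apply ihM
    intro i
    cases i with
    | zero => simp only [ups, scons, deg]; rw [ihA h]
    | succ i =>
      simp only [ups, scons]
      exact (deg_ren (σ i) (ℓ := ℓ') (ξ := Nat.succ) (fun j => rfl)).trans (h i)
  | pi A M ihA ihM =>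
    intro ℓ ℓ' σ h
    simp only [inst, deg]
    apply ihM
    intro i
    cases i with
    | zero => simp only [ups, scons, deg]; rw [ihA h]
    | succ i =>
      simp only [ups, scons]
      exact (deg_ren (σ i) (ℓ := ℓ') (ξ := Nat.succ) (fun j => rfl)).trans (h i)

theorem deg_lift_zero (d : ℕ) (ℓ : ℕ → ℕ) (M : Tm ℕ) : deg (scons d ℓ) (lift 0 M) = deg ℓ M := by
  rw [lift_zero_eq_ren]
  exact deg_ren M (fun _ => rfl)

theorem deg_subst_zero (ℓ : ℕ → ℕ) (M N : Tm ℕ) :
    deg ℓ (subst 0 N M) = deg (scons (deg ℓ N) ℓ) M := by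
  rw [subst_eq_inst]
  apply deg_inst
  intro i
  cases i with
  | zero => simp [scons]
  | succ i => simp [scons, deg]

theorem deg_shift_drop (M : Tm ℕ) : ∀ (k : ℕ) (Γ : List (Tm ℕ)), k ≤ Γ.length →
    deg (degs Γ) (shift k M) = deg (degs (Γ.drop k)) M := by
  intro k
  induction k with
  | zero => intro Γ _; simp [shift]
  | succ k ih =>
    intro Γ hk
    cases Γ with
    | nil => simp at hk
    | cons A Γ =>
      have hk' : k ≤ Γ.length := by simpa using hk
      show deg (scons _ (degs Γ)) (lift 0 (shift k M)) = _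
      rw [deg_lift_zero, ih Γ hk']
      rfl

theorem degs_get : ∀ (Γ : List (Tm ℕ)) (i : ℕ) (A : Tm ℕ), Γ[i]? = some A →
    degs Γ i = deg (degs (Γ.drop (i + 1))) A - 1 := by
  intro Γ
  induction Γ with
  | nil => intro i A h; simp at h
  | cons B Γ ih =>
    intro i A h
    cases i with
    | zero =>
      simp only [List.getElem?_cons_zero, Option.some.injEq] at h
      subst h
      rfl
    | succ i =>
      simp only [List.getElem?_cons_succ] at h
      exact ih i A h

end Vale.Agent.P340
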