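import Vale.Agent.P340.Dep.Tele
import Vale.Agent.P340.Dep.Tiered

/-!
# The dependency eliminating translation (definitions)

A term `M` of degree `d` has a shadow `tr M e ...` of each degree `e ≤ d`.  A variable `x` of degree
`d` is replaced by variables `x_d, ..., x_0` (its shadows); `env i e` is the index of the shadow of
degree `e` of the variable `i`.  Two more variables are used: `o 1`, a type of sort `0`, and `o 0`,
an inhabitant of `o 1`.  If `M : A` then the shadow of degree `e` of `M` has as type the shadow of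
degree `e + 1` of `A`.  The shadow of degree `e` only contains subterms of degree at least `e`
(no dependency on terms of lower degree), and the shadow of degree `0` keeps all the redexes.

Out of range (`deg ℓ M < e`) the value is the dummy `sort 0`.
-/

namespace Vale.Agent.P340

open Tm

/-- The list `[d, d - 1, ..., e]` (empty if `d < e`). -/
def lvls (e d : ℕ) : List ℕ := (List.range (d + 1 - e)).reverse.map (· + e)

/-- The indices under a telescope that binds the `m` shadows `x_{lo + m - 1}, ..., x_lo` of a new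
variable. -/
def econs (lo m : ℕ) (env : ℕ → ℕ → ℕ) : ℕ → ℕ → ℕ
  | 0, e' => e' - lo
  | i + 1, e' => env i e' + m

/-- The shadow of degree `e` of an abstraction whose variable has degree `d`; `tA e'` is the shadow
of degree `e'` of the domain, `body` the shadow of degree `e` of the body. -/
def trLam (o : ℕ → ℕ) (e d : ℕ) (tA : ℕ → Tm ℕ) (body : Tm ℕ) : Tm ℕ :=
  if e = 0 then
    app (lam (var (o 1)) (lift 0 (lamsFrom 0 ((lvls 0 d).map fun e' => tA (e' + 1)) body))) (tA 0)
  else lamsFrom 0 ((lvls e d).map fun e' => tA (e' + 1)) body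

/-- The shadow of degree `e` of a product whose variable has degree `d`. -/
def trPi (o : ℕ → ℕ) (e d : ℕ) (tA : ℕ → Tm ℕ) (body : Tm ℕ) : Tm ℕ :=
  if e = 0 then
    app (app (lam (var (o 1))
        (lam (shift 1 (pisFrom 0 ((lvls 0 d).map fun e' => tA (e' + 1)) (var (o 1 + (d + 1)))))
          (var (o 0 + 2)))) (tA 0))
      (lamsFrom 0 ((lvls 0 d).map fun e' => tA (e' + 1)) body)
  else pisFrom 0 ((lvls (e - 1) d).map fun e' => tA (e' + 1)) body

/-- `tr M e ℓ env o`: the shadow of degree `e` of `M`. -/
def tr : Tm ℕ → ℕ → (ℕ → ℕ) → (ℕ → ℕ → ℕ) → (ℕ → ℕ) → Tm ℕ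
  | var i, e, ℓ, env, _ => if ℓ i < e then sort 0 else var (env i e)
  | sort k, e, _, _, o =>
      if k + 2 < e then sort 0 else if e = k + 2 then sort k
      else if 2 ≤ e then sort (e - 2) else var (o e)
  | app M N, e, ℓ, env, o =>
      if deg ℓ M < e then sort 0
      else apps (tr M e ℓ env o) ((lvls e (deg ℓ N)).map fun e' => tr N e' ℓ env o)
  | lam A M, e, ℓ, env, o =>
      if deg (scons (deg ℓ A - 1) ℓ) M < e then sort 0
      else trLam o e (deg ℓ A - 1) (fun e' => tr A e' ℓ env o)
        (tr M e (scons (deg ℓ A - 1) ℓ) (econs e (deg ℓ A - 1 + 1 - e) env)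
          (fun x => o x + (deg ℓ A - 1 + 1 - e)))
  | pi A B, e, ℓ, env, o =>
      if deg (scons (deg ℓ A - 1) ℓ) B < e then sort 0
      else trPi o e (deg ℓ A - 1) (fun e' => tr A e' ℓ env o)
        (tr B e (scons (deg ℓ A - 1) ℓ) (econs (e - 1) (deg ℓ A - 1 + 1 - (e - 1)) env)
          (fun x => o x + (deg ℓ A - 1 + 1 - (e - 1))))

/-- `ρ'` contains all the (non-dependent) rules needed to type the translation of `tiered n ρ`. -/
def Covers (ρ ρ' : ℕ → ℕ → Prop) : Prop :=
  ∀ i j, ρ i j → ∀ f i', f ≤ j → f ≤ i' → i' ≤ i → ρ' i' f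

end Vale.Agent.P340
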