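import Vale.Agent.P340.Dep.TyMain

/-!
# The translation of contexts
-/

namespace Vale.Agent.P340

open Tm

/-- The indices of the shadows in the translated context. -/
def cenv : List (Tm ℕ) → ℕ → ℕ → ℕ
  | [] => fun _ _ => 0
  | A :: Γ => econs 0 (deg (degs Γ) A - 1 + 1) (cenv Γ)

/-- The indices of the two auxiliary variables in the translated context. -/
def caux : List (Tm ℕ) → ℕ → ℕ
  | [] => fun x => x
  | A :: Γ => fun x => caux Γ x + (deg (degs Γ) A - 1 + 1)

/-- The translated context: at the bottom a type variable of sort `0` and an inhabitant of it, then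
all the shadows of each variable. -/
def cctx : List (Tm ℕ) → List (Tm ℕ)
  | [] => [var 0, sort 0]
  | A :: Γ =>
      extFrom 0 ((lvls 0 (deg (degs Γ) A - 1)).map fun e' => tr A (e' + 1) (degs Γ) (cenv Γ) (caux Γ))
        (cctx Γ)

/-- The translated context is admissible. -/
theorem envOK_cctx {n : ℕ} {ρ ρ' : ℕ → ℕ → Prop} (hc : Covers ρ ρ') (hn : 1 < n) :
    ∀ Γ : List (Tm ℕ), Wf (tiered n ρ) Γ → EnvOK (tiered n ρ') Γ (cctx Γ) (cenv Γ) (caux Γ) 0 := by
  intro Γ
  induction Γ with
  | nil =>
    intro _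
    have h0 : Typing (tiered n ρ') [] (sort 0) (sort 1) := Typing.ax ⟨rfl, hn⟩
    have h1 : Typing (tiered n ρ') [sort 0] (var 0) (sort 0) := Typing.var h0
    have h2 : Typing (tiered n ρ') [var 0, sort 0] (var 1) (sort 0) := Typing.weak h1 h1
    have h3 : Typing (tiered n ρ') [var 0, sort 0] (var 0) (var 1) := Typing.var h1
    refine ⟨Wf.cons h1, h2, h3, ?_⟩
    intro i A hi
    simp at hi
  | cons A Γ ih =>
    intro hwf
    cases hwf with
    | @cons _ _ s hA =>
      have hE := ih hA.wf
      have hd : deg (degs Γ) A - 1 = s := by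
        rw [hA.deg_of_sort]
        rfl
      have h := EnvOK.ext hA (hA.trOK hc) hE 0 0 (Nat.zero_le _) le_rfl le_rfl
      simp only [cctx, cenv, caux, hd]
      simpa using h

end Vale.Agent.P340
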