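import Vale.Agent.P340.Dep.SimRedex
import Vale.Agent.P340.Dep.SimApp
import Vale.Agent.P340.Dep.SimLam
import Vale.Agent.P340.Dep.SimPi
import Vale.Agent.P340.Dep.Degree

/-!
# The dependency eliminating translation: simulation of reduction
-/

namespace Vale.Agent.P340

open Tm

theorem Typing.sim {n : ℕ} {ρ : ℕ → ℕ → Prop} {M M' : Tm ℕ} (hb : Beta M M') :
    ∀ {Γ : List (Tm ℕ)} {T : Tm ℕ}, Typing (tiered n ρ) Γ M T → Sim (degs Γ) M M' := by
  induction hb with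
  | beta A M N =>
    intro Γ T h
    have hN : Typing (tiered n ρ) Γ N A := h.redex_arg
    have := hN.deg_type
    exact sim_redex _ A M N (by omega)
  | appL N hb ih =>
    intro Γ T h
    obtain ⟨A, B, hM, _, _⟩ := h.gen_app
    exact sim_appL N (ih hM) (hM.deg_beta hb)
  | appR M hb ih =>
    intro Γ T h
    obtain ⟨A, B, _, hN, _⟩ := h.gen_app
    exact sim_appR M (ih hN) (hN.deg_beta hb)
  | lamD M hb ih =>
    intro Γ T h
    obtain ⟨B, s, _, hP, _⟩ := h.gen_lam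
    obtain ⟨s₁, s₂, s₃, _, hA, _, _⟩ := hP.gen_pi
    exact sim_lamD M (ih hA) (hA.deg_beta hb)
  | lamB A hb ih =>
    intro Γ T h
    obtain ⟨B, s, hM, _, _⟩ := h.gen_lam
    exact sim_lamB A (ih hM) (hM.deg_beta hb)
  | piD B hb ih =>
    intro Γ T h
    obtain ⟨s₁, s₂, s₃, _, hA, _, _⟩ := h.gen_pi
    exact sim_piD B (ih hA) (hA.deg_beta hb)
  | piB A hb ih =>
    intro Γ T h
    obtain ⟨s₁, s₂, s₃, _, _, hB, _⟩ := h.gen_pi
    exact sim_piB A (ih hB) (hB.deg_beta hb)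

/-- A reduction step of a typable term is simulated by every shadow, and by at least one step in the
shadow of degree `0`. -/
theorem Typing.tr_beta {n : ℕ} {ρ : ℕ → ℕ → Prop} {M M' : Tm ℕ} (hb : Beta M M')
    {Γ : List (Tm ℕ)} {T : Tm ℕ} (h : Typing (tiered n ρ) Γ M T)
    (env : ℕ → ℕ → ℕ) (o : ℕ → ℕ) :
      (∀ e, Red (tr M e (degs Γ) env o) (tr M' e (degs Γ) env o)) ∧
      Red1 (tr M 0 (degs Γ) env o) (tr M' 0 (degs Γ) env o) :=
  Typing.sim hb h env o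

theorem Typing.tr_red {n : ℕ} {ρ : ℕ → ℕ → Prop} {Γ : List (Tm ℕ)} {M M' T : Tm ℕ}
    (h : Typing (tiered n ρ) Γ M T) (hr : Red M M') (e : ℕ) (env : ℕ → ℕ → ℕ) (o : ℕ → ℕ) :
    Red (tr M e (degs Γ) env o) (tr M' e (degs Γ) env o) := by
  induction hr with
  | refl => exact Relation.ReflTransGen.refl
  | tail hr hb ih => exact ih.trans ((Typing.tr_beta hb (h.red hr) env o).1 e)

/-- Convertible legal terms have convertible shadows. -/
theorem tr_betaEq {n : ℕ} {ρ : ℕ → ℕ → Prop} {Γ : List (Tm ℕ)} {X Y : Tm ℕ}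
    (hX : (∃ s, X = sort s) ∨ ∃ T, Typing (tiered n ρ) Γ X T)
    (hY : (∃ s, Y = sort s) ∨ ∃ T, Typing (tiered n ρ) Γ Y T)
    (hc : BetaEq X Y) (e : ℕ) (env : ℕ → ℕ → ℕ) (o : ℕ → ℕ) :
    BetaEq (tr X e (degs Γ) env o) (tr Y e (degs Γ) env o) := by
  obtain ⟨K, hXK, hYK⟩ := hc.common_reduct
  have h1 : Red (tr X e (degs Γ) env o) (tr K e (degs Γ) env o) := by
    rcases hX with ⟨s, rfl⟩ | ⟨T, hT⟩
    · rw [hXK.sort_inv]
    · exact hT.tr_red hXK e env o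
  have h2 : Red (tr Y e (degs Γ) env o) (tr K e (degs Γ) env o) := by
    rcases hY with ⟨s, rfl⟩ | ⟨T, hT⟩
    · rw [hYK.sort_inv]
    · exact hT.tr_red hYK e env o
  exact (BetaEq.of_red h1).trans (BetaEq.of_red h2).symm

end Vale.Agent.P340
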