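import Vale.Agent.P340.Dep.Trans

/-!
# The dependency eliminating translation: renaming and substitution lemmas (syntactic)
-/

namespace Vale.Agent.P340

open Tm

theorem lvls_length (e d : ℕ) : (lvls e d).length = d + 1 - e := by
  unfold lvls
  rw [List.length_map, List.length_reverse, List.length_range]

theorem mem_lvls {e d x : ℕ} : x ∈ lvls e d ↔ e ≤ x ∧ x ≤ d := by
  unfold lvls
  rw [List.mem_map]
  constructor
  · rintro ⟨a, ha, rfl⟩
    rw [List.mem_reverse, List.mem_range] at ha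
    omega
  · rintro ⟨h1, h2⟩
    refine ⟨x - e, ?_, by omega⟩
    rw [List.mem_reverse, List.mem_range]
    omega

theorem lvls_get (e d r : ℕ) (h : r < (lvls e d).length) : (lvls e d)[r] = d - r := by
  have h' : r < d + 1 - e := by rw [lvls_length] at h; exact h
  have h0 : (lvls e d)[r]
      = ((List.range (d + 1 - e)).reverse.map (· + e))[r]'(by simpa using h') := rfl
  rw [h0, List.getElem_map, List.getElem_reverse, List.getElem_range, List.length_range]
  omega

/-- For `e ≤ d` the last element of `lvls e d` is `e`. -/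
theorem lvls_eq_append {e d : ℕ} (h : e ≤ d) : lvls e d = lvls (e + 1) d ++ [e] := by
  apply List.ext_getElem
  · rw [List.length_append, lvls_length, lvls_length, List.length_singleton]
    omega
  · intro r h1 h2
    rw [lvls_get]
    have h1' : r < d + 1 - e := by rw [lvls_length] at h1; exact h1
    by_cases hr : r < (lvls (e + 1) d).length
    · rw [List.getElem_append_left hr, lvls_get]
    · rw [List.getElem_append_right (not_lt.mp hr)]
      rw [lvls_length] at hr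
      simp only [List.getElem_singleton]
      omega

theorem ren_upr_lift_transSyn (ζ : ℕ → ℕ) (L : Tm ℕ) :
    ren (upr ζ) (lift 0 L) = lift 0 (ren ζ L) := ren_uprn_shift 1 ζ L

theorem map_tA_transSyn (ζ : ℕ → ℕ) (e lo d : ℕ) (tA tA' : ℕ → Tm ℕ)
    (hA : ∀ e', e ≤ e' → tA' e' = ren ζ (tA e')) (hlo : e ≤ lo + 1) :
    (lvls lo d).map (fun e' => tA' (e' + 1))
      = ((lvls lo d).map fun e' => tA (e' + 1)).map (ren ζ) := by
  rw [List.map_map]
  apply List.map_congr_left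
  intro x hx
  rw [mem_lvls] at hx
  exact hA (x + 1) (by omega)

theorem ren_trLam_transSyn (ζ o o' : ℕ → ℕ) (e d : ℕ) (tA tA' : ℕ → Tm ℕ) (body body' : Tm ℕ)
    (ho : ∀ x, o' x = ζ (o x)) (hA : ∀ e', e ≤ e' → tA' e' = ren ζ (tA e'))
    (hb : body' = ren (uprn (d + 1 - e) ζ) body) :
    trLam o' e d tA' body' = ren ζ (trLam o e d tA body) := by
  have hL : lamsFrom 0 ((lvls e d).map fun e' => tA' (e' + 1)) body'
      = ren ζ (lamsFrom 0 ((lvls e d).map fun e' => tA (e' + 1)) body) := by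
    have h := ren_lamsFrom ζ ((lvls e d).map fun e' => tA (e' + 1)) 0 body
    rw [List.length_map, lvls_length, Nat.zero_add] at h
    rw [map_tA_transSyn ζ e e d tA tA' hA (by omega), hb]
    exact h.symm
  unfold trLam
  by_cases he : e = 0
  · subst he
    rw [if_pos rfl, if_pos rfl, hL, hA 0 le_rfl, ho 1]
    simp only [ren, ren_upr_lift_transSyn]
  · rw [if_neg he, if_neg he, hL]

theorem ren_trPi_transSyn (ζ o o' : ℕ → ℕ) (e d : ℕ) (tA tA' : ℕ → Tm ℕ) (body body' : Tm ℕ)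
    (ho : ∀ x, o' x = ζ (o x)) (hA : ∀ e', e ≤ e' → tA' e' = ren ζ (tA e'))
    (hb : body' = ren (uprn (d + 1 - (e - 1)) ζ) body) :
    trPi o' e d tA' body' = ren ζ (trPi o e d tA body) := by
  unfold trPi
  by_cases he : e = 0
  · subst he
    rw [if_pos rfl, if_pos rfl]
    have hL : lamsFrom 0 ((lvls 0 d).map fun e' => tA' (e' + 1)) body'
        = ren ζ (lamsFrom 0 ((lvls 0 d).map fun e' => tA (e' + 1)) body) := by
      have h := ren_lamsFrom ζ ((lvls 0 d).map fun e' => tA (e' + 1)) 0 body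
      rw [List.length_map, lvls_length, Nat.zero_add] at h
      rw [map_tA_transSyn ζ 0 0 d tA tA' hA (by omega), hb]
      exact h.symm
    have hP : pisFrom 0 ((lvls 0 d).map fun e' => tA' (e' + 1)) (var (o' 1 + (d + 1)))
        = ren ζ (pisFrom 0 ((lvls 0 d).map fun e' => tA (e' + 1)) (var (o 1 + (d + 1)))) := by
      have h := ren_pisFrom ζ ((lvls 0 d).map fun e' => tA (e' + 1)) 0 (var (o 1 + (d + 1)))
      rw [List.length_map, lvls_length, Nat.zero_add] at h
      rw [map_tA_transSyn ζ 0 0 d tA tA' hA (by omega), ho 1]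
      refine Eq.trans ?_ h.symm
      simp only [ren, Nat.sub_zero, uprn_add]
    rw [hL, hP, hA 0 le_rfl, ho 1, ho 0]
    have hs : ∀ X : Tm ℕ, ren (upr ζ) (shift 1 X) = shift 1 (ren ζ X) :=
      fun X => ren_uprn_shift 1 ζ X
    simp only [ren, hs, upr]
  · rw [if_neg he, if_neg he]
    have h := ren_pisFrom ζ ((lvls (e - 1) d).map fun e' => tA (e' + 1)) 0 body
    rw [List.length_map, lvls_length, Nat.zero_add] at h
    rw [map_tA_transSyn ζ e (e - 1) d tA tA' hA (by omega), hb]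
    exact h.symm

theorem scons_upr_transSyn {ℓ ℓ' ξ : ℕ → ℕ} (d : ℕ) (hℓ : ∀ i, ℓ' (ξ i) = ℓ i) (i : ℕ) :
    scons d ℓ' (upr ξ i) = scons d ℓ i := by
  cases i with
  | zero => rfl
  | succ i => exact hℓ i

theorem econs_upr_transSyn {ℓ ξ ζ : ℕ → ℕ} {env env' : ℕ → ℕ → ℕ} (e lo d : ℕ)
    (hlo : lo ≤ e)
    (henv : ∀ i e', e ≤ e' → e' ≤ ℓ i → env' (ξ i) e' = ζ (env i e')) (i e' : ℕ)
    (h1 : e ≤ e') (h2 : e' ≤ scons d ℓ i) :
    econs lo (d + 1 - lo) env' (upr ξ i) e' = uprn (d + 1 - lo) ζ (econs lo (d + 1 - lo) env i e') := by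
  cases i with
  | zero =>
    have h2' : e' ≤ d := h2
    show e' - lo = uprn (d + 1 - lo) ζ (e' - lo)
    rw [uprn_lt ζ (by omega)]
  | succ i =>
    show env' (ξ i) e' + (d + 1 - lo) = uprn (d + 1 - lo) ζ (env i e' + (d + 1 - lo))
    rw [uprn_add, henv i e' h1 h2]

/-- Compatibility of the translation with a renaming `ξ` of the source and a renaming `ζ` of the
target. -/
theorem tr_ren (M : Tm ℕ) : ∀ (e : ℕ) (ℓ ℓ' : ℕ → ℕ) (env env' : ℕ → ℕ → ℕ) (o o' : ℕ → ℕ)
    (ξ ζ : ℕ → ℕ), (∀ i, ℓ' (ξ i) = ℓ i) →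
    (∀ i e', e ≤ e' → e' ≤ ℓ i → env' (ξ i) e' = ζ (env i e')) → (∀ x, o' x = ζ (o x)) →
    tr (ren ξ M) e ℓ' env' o' = ren ζ (tr M e ℓ env o) := by
  induction M with
  | var i =>
    intro e ℓ ℓ' env env' o o' ξ ζ hℓ henv ho
    simp only [ren, tr, hℓ i]
    by_cases h : ℓ i < e
    · rw [if_pos h, if_pos h]; rfl
    · rw [if_neg h, if_neg h, henv i e le_rfl (not_lt.mp h)]; rfl
  | sort k =>
    intro e ℓ ℓ' env env' o o' ξ ζ hℓ henv ho
    simp only [ren, tr]
    split_ifs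
    · rfl
    · rfl
    · rfl
    · rw [ho e]; rfl
  | app M N ihM ihN =>
    intro e ℓ ℓ' env env' o o' ξ ζ hℓ henv ho
    simp only [ren, tr, deg_ren M hℓ, deg_ren N hℓ]
    by_cases h : deg ℓ M < e
    · rw [if_pos h, if_pos h]; rfl
    · rw [if_neg h, if_neg h, ren_apps, List.map_map,
        ihM e ℓ ℓ' env env' o o' ξ ζ hℓ henv ho]
      congr 1
      apply List.map_congr_left
      intro x hx
      rw [mem_lvls] at hx
      exact ihN x ℓ ℓ' env env' o o' ξ ζ hℓ
        (fun i e' h1 h2 => henv i e' (hx.1.trans h1) h2) ho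
  | lam A M ihA ihM =>
    intro e ℓ ℓ' env env' o o' ξ ζ hℓ henv ho
    simp only [ren, tr, deg_ren A hℓ, deg_ren M (scons_upr_transSyn (deg ℓ A - 1) hℓ)]
    by_cases h : deg (scons (deg ℓ A - 1) ℓ) M < e
    · rw [if_pos h, if_pos h]; rfl
    · rw [if_neg h, if_neg h]
      apply ren_trLam_transSyn ζ o o' e (deg ℓ A - 1) _ _ _ _ ho
      · intro e' he'
        exact ihA e' ℓ ℓ' env env' o o' ξ ζ hℓ
          (fun i e'' h1 h2 => henv i e'' (he'.trans h1) h2) ho
      · apply ihM e _ _ _ _ _ _ (upr ξ) (uprn (deg ℓ A - 1 + 1 - e) ζ)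
          (scons_upr_transSyn (deg ℓ A - 1) hℓ)
        · exact econs_upr_transSyn e e (deg ℓ A - 1) le_rfl henv
        · intro x
          rw [uprn_add, ho x]
  | pi A M ihA ihM =>
    intro e ℓ ℓ' env env' o o' ξ ζ hℓ henv ho
    simp only [ren, tr, deg_ren A hℓ, deg_ren M (scons_upr_transSyn (deg ℓ A - 1) hℓ)]
    by_cases h : deg (scons (deg ℓ A - 1) ℓ) M < e
    · rw [if_pos h, if_pos h]; rfl
    · rw [if_neg h, if_neg h]
      apply ren_trPi_transSyn ζ o o' e (deg ℓ A - 1) _ _ _ _ ho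
      · intro e' he'
        exact ihA e' ℓ ℓ' env env' o o' ξ ζ hℓ
          (fun i e'' h1 h2 => henv i e'' (he'.trans h1) h2) ho
      · apply ihM e _ _ _ _ _ _ (upr ξ) (uprn (deg ℓ A - 1 + 1 - (e - 1)) ζ)
          (scons_upr_transSyn (deg ℓ A - 1) hℓ)
        · exact econs_upr_transSyn e (e - 1) (deg ℓ A - 1) (Nat.sub_le _ _) henv
        · intro x
          rw [uprn_add, ho x]

/-- The translation only depends on the relevant values of its parameters. -/
theorem tr_congr (M : Tm ℕ) {e : ℕ} {ℓ ℓ' : ℕ → ℕ} {env env' : ℕ → ℕ → ℕ} {o o' : ℕ → ℕ}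
    (hℓ : ∀ i, ℓ' i = ℓ i) (henv : ∀ i e', e ≤ e' → e' ≤ ℓ i → env' i e' = env i e')
    (ho : ∀ x, o' x = o x) : tr M e ℓ' env' o' = tr M e ℓ env o := by
  have h := tr_ren M e ℓ ℓ' env env' o o' (fun i => i) (fun i => i) hℓ henv ho
  rw [ren_id, ren_id] at h
  exact h

theorem tr_lift_zero (M : Tm ℕ) (e d : ℕ) (ℓ : ℕ → ℕ) (env : ℕ → ℕ → ℕ) (o : ℕ → ℕ) :
    tr (lift 0 M) e (scons d ℓ) env o = tr M e ℓ (fun i => env (i + 1)) o := by
  rw [lift_zero_eq_ren]
  have h := tr_ren M e ℓ (scons d ℓ) (fun i => env (i + 1)) env o o Nat.succ (fun i => i)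
    (fun _ => rfl) (fun _ _ _ _ => rfl) (fun _ => rfl)
  rw [ren_id] at h
  exact h

theorem tr_lift_econs (M : Tm ℕ) (e d lo m : ℕ) (ℓ : ℕ → ℕ) (env : ℕ → ℕ → ℕ) (o : ℕ → ℕ) :
    tr (lift 0 M) e (scons d ℓ) (econs lo m env) (fun x => o x + m) =
      shift m (tr M e ℓ env o) := by
  rw [lift_zero_eq_ren, shift_eq_ren]
  exact tr_ren M e ℓ (scons d ℓ) env (econs lo m env) o (fun x => o x + m) Nat.succ
    (fun i => i + m) (fun _ => rfl) (fun _ _ _ _ => rfl) (fun _ => rfl)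

end Vale.Agent.P340
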