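import Vale.Agent.P340.Dep.TransSyn

/-!
# The dependency eliminating translation: the substitution lemma (syntactic)
-/

namespace Vale.Agent.P340

open Tm

theorem tr_out_of_range_syn2 (M : Tm ℕ) (e : ℕ) (ℓ : ℕ → ℕ) (env : ℕ → ℕ → ℕ) (o : ℕ → ℕ)
    (h : deg ℓ M < e) : tr M e ℓ env o = sort 0 := by
  cases M with
  | var i => simp only [deg] at h; simp only [tr, if_pos h]
  | sort k => simp only [deg] at h; simp only [tr, if_pos h]
  | app M N => simp only [deg] at h; simp only [tr, if_pos h]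
  | lam A M => simp only [deg] at h; simp only [tr, if_pos h]
  | pi A M => simp only [deg] at h; simp only [tr, if_pos h]

theorem shift_var_syn2 (m j : ℕ) : shift m (var j : Tm ℕ) = var (j + m) := by
  rw [shift_eq_ren]; rfl

theorem inst_ups_lift_syn2 (θ : ℕ → Tm ℕ) (L : Tm ℕ) :
    inst (ups θ) (lift 0 L) = lift 0 (inst θ L) := by
  have h := inst_upsn_shift 1 θ L
  exact h

theorem trLam_congr_syn2 (o : ℕ → ℕ) (e d : ℕ) (tA tA' : ℕ → Tm ℕ) (body : Tm ℕ)
    (h : ∀ e', e ≤ e' → tA e' = tA' e') : trLam o e d tA body = trLam o e d tA' body := by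
  unfold trLam
  have h1 : ∀ lo, e ≤ lo + 1 → (lvls lo d).map (fun e' => tA (e' + 1))
      = (lvls lo d).map (fun e' => tA' (e' + 1)) := by
    intro lo hlo
    apply List.map_congr_left
    intro x hx
    have := (mem_lvls.mp hx).1
    exact h _ (by omega)
  by_cases he : e = 0
  · simp only [if_pos he]
    rw [h1 0 (by omega), h 0 (by omega)]
  · simp only [if_neg he]
    rw [h1 e (by omega)]

theorem trPi_congr_syn2 (o : ℕ → ℕ) (e d : ℕ) (tA tA' : ℕ → Tm ℕ) (body : Tm ℕ)
    (h : ∀ e', e ≤ e' → tA e' = tA' e') : trPi o e d tA body = trPi o e d tA' body := by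
  unfold trPi
  have h1 : ∀ lo, e ≤ lo + 1 → (lvls lo d).map (fun e' => tA (e' + 1))
      = (lvls lo d).map (fun e' => tA' (e' + 1)) := by
    intro lo hlo
    apply List.map_congr_left
    intro x hx
    have := (mem_lvls.mp hx).1
    exact h _ (by omega)
  by_cases he : e = 0
  · simp only [if_pos he]
    rw [h1 0 (by omega), h 0 (by omega)]
  · simp only [if_neg he]
    rw [h1 (e - 1) (by omega)]

theorem inst_trLam_syn2 (θ : ℕ → Tm ℕ) (o o' : ℕ → ℕ) (e d : ℕ) (tA : ℕ → Tm ℕ) (body : Tm ℕ)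
    (ho : ∀ x, θ (o x) = var (o' x)) :
    inst θ (trLam o e d tA body)
      = trLam o' e d (fun e' => inst θ (tA e')) (inst (upsn (d + 1 - e) θ) body) := by
  unfold trLam
  by_cases he : e = 0
  · subst he
    simp only [if_true]
    have h := inst_lamsFrom θ ((lvls 0 d).map fun e' => tA (e' + 1)) 0 body
    simp only [List.length_map, lvls_length, Nat.zero_add, List.map_map] at h
    simp only [inst, inst_ups_lift_syn2, ho]
    rw [show inst θ (lamsFrom 0 ((lvls 0 d).map fun e' => tA (e' + 1)) body) = _ from h]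
    rfl
  · simp only [if_neg he]
    have h := inst_lamsFrom θ ((lvls e d).map fun e' => tA (e' + 1)) 0 body
    simp only [List.length_map, lvls_length, Nat.zero_add, List.map_map] at h
    rw [show inst θ (lamsFrom 0 ((lvls e d).map fun e' => tA (e' + 1)) body) = _ from h]
    rfl

theorem inst_trPi_syn2 (θ : ℕ → Tm ℕ) (o o' : ℕ → ℕ) (e d : ℕ) (tA : ℕ → Tm ℕ) (body : Tm ℕ)
    (ho : ∀ x, θ (o x) = var (o' x)) :
    inst θ (trPi o e d tA body)
      = trPi o' e d (fun e' => inst θ (tA e')) (inst (upsn (d + 1 - (e - 1)) θ) body) := by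
  unfold trPi
  by_cases he : e = 0
  · subst he
    simp only [if_true]
    have h := inst_lamsFrom θ ((lvls 0 d).map fun e' => tA (e' + 1)) 0 body
    simp only [List.length_map, lvls_length, Nat.zero_add, List.map_map] at h
    have h2 := inst_pisFrom θ ((lvls 0 d).map fun e' => tA (e' + 1)) 0 (var (o 1 + (d + 1)))
    simp only [List.length_map, lvls_length, Nat.zero_add, List.map_map] at h2
    have h3 : inst (upsn (d + 1 - 0) θ) (var (o 1 + (d + 1))) = var (o' 1 + (d + 1)) := by
      show upsn (d + 1) θ (o 1 + (d + 1)) = _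
      rw [upsn_add, ho, shift_var_syn2]
    rw [h3] at h2
    have h4 : ups (ups θ) (o 0 + 2) = var (o' 0 + 2) := by
      have := upsn_add 2 (o 0) θ
      rw [ho, shift_var_syn2] at this
      exact this
    have h5 : ∀ L : Tm ℕ, inst (ups θ) (shift 1 L) = shift 1 (inst θ L) :=
      fun L => inst_upsn_shift 1 θ L
    simp only [inst, h5, ho, h4]
    rw [show inst θ (lamsFrom 0 ((lvls 0 d).map fun e' => tA (e' + 1)) body) = _ from h,
      show inst θ (pisFrom 0 ((lvls 0 d).map fun e' => tA (e' + 1)) (var (o 1 + (d + 1)))) = _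
        from h2]
    rfl
  · simp only [if_neg he]
    have h := inst_pisFrom θ ((lvls (e - 1) d).map fun e' => tA (e' + 1)) 0 body
    simp only [List.length_map, lvls_length, Nat.zero_add, List.map_map] at h
    rw [show inst θ (pisFrom 0 ((lvls (e - 1) d).map fun e' => tA (e' + 1)) body) = _ from h]
    rfl

/-- the hypotheses of `tr_inst` under a telescope -/
theorem under_deg_syn2 (d : ℕ) (ℓ ℓ' : ℕ → ℕ) (σ : ℕ → Tm ℕ) (hd : ∀ i, deg ℓ' (σ i) = ℓ i) :
    ∀ i, deg (scons d ℓ') (ups σ i) = scons d ℓ i := by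
  intro i
  cases i with
  | zero => rfl
  | succ i =>
    simp only [ups, scons]
    exact (deg_ren (σ i) (ℓ := ℓ') (ξ := Nat.succ) (fun j => rfl)).trans (hd i)

theorem under_env_syn2 (e lo d : ℕ) (hlo : lo ≤ e) (ℓ ℓ' : ℕ → ℕ) (env env' : ℕ → ℕ → ℕ)
    (o' : ℕ → ℕ) (σ θ : ℕ → Tm ℕ)
    (henv : ∀ i e', e ≤ e' → e' ≤ ℓ i → θ (env i e') = tr (σ i) e' ℓ' env' o') :
    ∀ i e', e ≤ e' → e' ≤ scons d ℓ i →
      upsn (d + 1 - lo) θ (econs lo (d + 1 - lo) env i e')
        = tr (ups σ i) e' (scons d ℓ') (econs lo (d + 1 - lo) env')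
            (fun x => o' x + (d + 1 - lo)) := by
  intro i e' h1 h2
  cases i with
  | zero =>
    simp only [scons] at h2
    simp only [econs, ups, tr]
    have h3 : ¬ scons d ℓ' 0 < e' := by
      simp only [scons]; omega
    rw [upsn_lt θ (by omega), if_neg h3]
  | succ i =>
    simp only [scons] at h2
    simp only [econs, ups]
    rw [upsn_add, henv i e' h1 h2, ← lift_zero_eq_ren, tr_lift_econs]

theorem under_o_syn2 (m : ℕ) (o o' : ℕ → ℕ) (θ : ℕ → Tm ℕ) (ho : ∀ x, θ (o x) = var (o' x)) :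
    ∀ x, upsn m θ (o x + m) = var (o' x + m) := by
  intro x
  rw [upsn_add, ho, shift_var_syn2]

/-- Compatibility of the translation with a parallel substitution `σ` of the source and a parallel
substitution `θ` of the target. -/
theorem tr_inst (M : Tm ℕ) : ∀ (e : ℕ) (ℓ ℓ' : ℕ → ℕ) (env env' : ℕ → ℕ → ℕ) (o o' : ℕ → ℕ)
    (σ θ : ℕ → Tm ℕ), (∀ i, deg ℓ' (σ i) = ℓ i) →
    (∀ i e', e ≤ e' → e' ≤ ℓ i → θ (env i e') = tr (σ i) e' ℓ' env' o') →
    (∀ x, θ (o x) = var (o' x)) →
    tr (inst σ M) e ℓ' env' o' = inst θ (tr M e ℓ env o) := by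
  induction M with
  | var i =>
    intro e ℓ ℓ' env env' o o' σ θ hd henv ho
    simp only [inst, tr]
    by_cases h : ℓ i < e
    · rw [if_pos h, tr_out_of_range_syn2 _ _ _ _ _ (by rw [hd]; exact h)]
      rfl
    · rw [if_neg h]
      exact (henv i e le_rfl (by omega)).symm
  | sort k =>
    intro e ℓ ℓ' env env' o o' σ θ hd henv ho
    simp only [inst, tr]
    split_ifs <;> first | rfl | exact (ho e).symm
  | app M N ihM ihN =>
    intro e ℓ ℓ' env env' o o' σ θ hd henv ho
    simp only [inst, tr, deg_inst M hd, deg_inst N hd]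
    by_cases h : deg ℓ M < e
    · simp only [if_pos h]; rfl
    · simp only [if_neg h]
      rw [inst_apps, List.map_map, ihM e ℓ ℓ' env env' o o' σ θ hd henv ho]
      congr 1
      apply List.map_congr_left
      intro x hx
      have hx1 := (mem_lvls.mp hx).1
      exact ihN x ℓ ℓ' env env' o o' σ θ hd
        (fun i e' h1 h2 => henv i e' (le_trans hx1 h1) h2) ho
  | lam A M ihA ihM =>
    intro e ℓ ℓ' env env' o o' σ θ hd henv ho
    have hdA := deg_inst A hd
    have hdM := deg_inst M (under_deg_syn2 (deg ℓ A - 1) ℓ ℓ' σ hd)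
    simp only [inst, tr, hdA, hdM]
    by_cases h : deg (scons (deg ℓ A - 1) ℓ) M < e
    · simp only [if_pos h]; rfl
    · simp only [if_neg h]
      rw [inst_trLam_syn2 θ o o' _ _ _ _ ho]
      rw [ihM e (scons (deg ℓ A - 1) ℓ) (scons (deg ℓ A - 1) ℓ')
        (econs e (deg ℓ A - 1 + 1 - e) env) (econs e (deg ℓ A - 1 + 1 - e) env')
        (fun x => o x + (deg ℓ A - 1 + 1 - e)) (fun x => o' x + (deg ℓ A - 1 + 1 - e))
        (ups σ) (upsn (deg ℓ A - 1 + 1 - e) θ)
        (under_deg_syn2 _ ℓ ℓ' σ hd)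
        (under_env_syn2 e e _ le_rfl ℓ ℓ' env env' o' σ θ henv)
        (under_o_syn2 _ o o' θ ho)]
      apply trLam_congr_syn2
      intro e' he'
      exact ihA e' ℓ ℓ' env env' o o' σ θ hd
        (fun i e'' h1 h2 => henv i e'' (le_trans he' h1) h2) ho
  | pi A M ihA ihM =>
    intro e ℓ ℓ' env env' o o' σ θ hd henv ho
    have hdA := deg_inst A hd
    have hdM := deg_inst M (under_deg_syn2 (deg ℓ A - 1) ℓ ℓ' σ hd)
    simp only [inst, tr, hdA, hdM]
    by_cases h : deg (scons (deg ℓ A - 1) ℓ) M < e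
    · simp only [if_pos h]; rfl
    · simp only [if_neg h]
      rw [inst_trPi_syn2 θ o o' _ _ _ _ ho]
      rw [ihM e (scons (deg ℓ A - 1) ℓ) (scons (deg ℓ A - 1) ℓ')
        (econs (e - 1) (deg ℓ A - 1 + 1 - (e - 1)) env)
        (econs (e - 1) (deg ℓ A - 1 + 1 - (e - 1)) env')
        (fun x => o x + (deg ℓ A - 1 + 1 - (e - 1))) (fun x => o' x + (deg ℓ A - 1 + 1 - (e - 1)))
        (ups σ) (upsn (deg ℓ A - 1 + 1 - (e - 1)) θ)
        (under_deg_syn2 _ ℓ ℓ' σ hd)
        (under_env_syn2 e (e - 1) _ (Nat.sub_le _ _) ℓ ℓ' env env' o' σ θ henv)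
        (under_o_syn2 _ o o' θ ho)]
      apply trPi_congr_syn2
      intro e' he'
      exact ihA e' ℓ ℓ' env env' o o' σ θ hd
        (fun i e'' h1 h2 => henv i e'' (le_trans he' h1) h2) ho

/-- The translation of a substitution instance. -/
theorem tr_subst_zero (M N : Tm ℕ) (e lo : ℕ) (ℓ : ℕ → ℕ) (env : ℕ → ℕ → ℕ) (o : ℕ → ℕ)
    (hlo : lo ≤ e) :
    tr (subst 0 N M) e ℓ env o =
      inst (tsub ((lvls lo (deg ℓ N)).map fun e' => tr N e' ℓ env o))
        (tr M e (scons (deg ℓ N) ℓ) (econs lo (deg ℓ N + 1 - lo) env)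
          (fun x => o x + (deg ℓ N + 1 - lo))) := by
  rw [subst_eq_inst]
  have hlen : ((lvls lo (deg ℓ N)).map fun e' => tr N e' ℓ env o).length = deg ℓ N + 1 - lo := by
    rw [List.length_map, lvls_length]
  apply tr_inst
  · intro i
    cases i with
    | zero => simp [scons]
    | succ i => simp [scons, deg]
  · intro i e' h1 h2
    cases i with
    | zero =>
      simp only [scons] at h2
      simp only [econs]
      rw [tsub_lt _ (by rw [hlen]; omega), List.getElem_map, lvls_get]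
      simp only [hlen]
      have : deg ℓ N - (deg ℓ N + 1 - lo - 1 - (e' - lo)) = e' := by omega
      rw [this]
      simp
    | succ i =>
      simp only [scons] at h2
      simp only [econs]
      have := tsub_add ((lvls lo (deg ℓ N)).map fun e' => tr N e' ℓ env o) (env i e')
      rw [hlen] at this
      rw [this]
      simp [tr, Nat.not_lt.mpr h2]
  · intro x
    have := tsub_add ((lvls lo (deg ℓ N)).map fun e' => tr N e' ℓ env o) (o x)
    rw [hlen] at this
    exact this

end Vale.Agent.P340
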