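import Vale.Agent.P340.Dep.EnvOK
import Vale.Agent.P340.Dep.TeleTy2

/-!
# Preservation of typing by the translation: the abstraction rule
-/

namespace Vale.Agent.P340

open Tm

theorem TrOK.abs {n : ℕ} {ρ ρ' : ℕ → ℕ → Prop} (hc : Covers ρ ρ') {Γ : List (Tm ℕ)}
    {A M B : Tm ℕ} {i s : ℕ}
    (hA : Typing (tiered n ρ) Γ A (sort i)) (hM : Typing (tiered n ρ) (A :: Γ) M B)
    (hP : Typing (tiered n ρ) Γ (pi A B) (sort s))
    (ihA : TrOK (tiered n ρ') Γ A (sort i)) (ihM : TrOK (tiered n ρ') (A :: Γ) M B)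
    (ihP : TrOK (tiered n ρ') Γ (pi A B) (sort s)) :
    TrOK (tiered n ρ') Γ (lam A M) (pi A B) := by
  intro Δ env o e hE he
  have dA : deg (degs Γ) A = i + 1 := hA.deg_of_sort
  have dA1 : deg (degs Γ) A - 1 = i := by omega
  have dP : deg (degs Γ) (pi A B) = s + 1 := hP.deg_of_sort
  have dL : deg (degs Γ) (pi A B) = deg (degs Γ) (lam A M) + 1 := (Typing.abs hM hP).deg_type
  have hes : e ≤ s := by omega
  have dctx : degs (A :: Γ) = scons i (degs Γ) := by
    show scons (deg (degs Γ) A - 1) (degs Γ) = _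
    rw [dA1]
  have dB : deg (scons i (degs Γ)) B = s + 1 := by
    have : deg (degs Γ) (pi A B) = deg (scons (deg (degs Γ) A - 1) (degs Γ)) B := rfl
    rw [dA1] at this
    omega
  have dM : deg (scons i (degs Γ)) M = s := by
    have : deg (degs Γ) (lam A M) = deg (scons (deg (degs Γ) A - 1) (degs Γ)) M := rfl
    rw [dA1] at this
    omega
  set Ds : List (Tm ℕ) := (lvls e i).map fun e' => tr A (e' + 1) (degs Γ) env o with hDs
  set T2 : Tm ℕ := tr B (e + 1) (scons i (degs Γ)) (econs e (i + 1 - e) env)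
    (fun x => o x + (i + 1 - e)) with hT2
  set b : Tm ℕ := tr M e (scons i (degs Γ)) (econs e (i + 1 - e) env)
    (fun x => o x + (i + 1 - e)) with hb
  have eqPi : tr (pi A B) (e + 1) (degs Γ) env o = pisFrom 0 Ds T2 := by
    simp only [tr, dA1, dB]
    rw [if_neg (by omega)]
    simp only [trPi]
    rw [if_neg (by omega)]
    simp only [Nat.add_sub_cancel]
    rfl
  have eqLam : tr (lam A M) e (degs Γ) env o
      = trLam o e i (fun e' => tr A e' (degs Γ) env o) b := by
    simp only [tr, dA1, dM]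
    rw [if_neg (by omega)]
  have hPi : Typing (tiered n ρ') Δ (pisFrom 0 Ds T2) (sort e) := by
    have h1 := ihP Δ env o (e + 1) (hE.mono (Nat.le_succ e)) (by omega)
    rw [eqPi, tr_sort_succ_succ hes] at h1
    exact h1
  have hbody : Typing (tiered n ρ') (extFrom 0 Ds Δ) b T2 := by
    have h1 := ihM (extFrom 0 Ds Δ) (econs e (i + 1 - e) env) (fun x => o x + (i + 1 - e)) e
      (EnvOK.ext hA ihA hE e e (Nat.le_succ e) le_rfl le_rfl) (by rw [dctx, dM]; exact hes)
    rw [dctx] at h1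
    exact h1
  have hL : Typing (tiered n ρ') Δ (lamsFrom 0 Ds b) (pisFrom 0 Ds T2) :=
    typing_lamsFrom_of_pis Ds 0 Δ b T2 e hPi hbody
  rw [eqPi, eqLam]
  by_cases he0 : e = 0
  · subst he0
    simp only [trLam, if_true]
    obtain ⟨s₁, s₂, s₃, hr, _, _, _⟩ := hP.gen_pi
    obtain ⟨_, hs1, _, hρ⟩ := hr
    have hrule : (tiered n ρ').rule 0 0 0 :=
      ⟨rfl, by omega, by omega, hc s₁ s₂ hρ 0 0 (Nat.zero_le _) le_rfl (Nat.zero_le _)⟩
    have hw : Typing (tiered n ρ') (var (o 1) :: Δ) (lift 0 (lamsFrom 0 Ds b))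
        (lift 0 (pisFrom 0 Ds T2)) := Typing.weak hL hE.o1
    have hwP : Typing (tiered n ρ') (var (o 1) :: Δ) (lift 0 (pisFrom 0 Ds T2)) (sort 0) :=
      Typing.weak hPi hE.o1
    have hprod : Typing (tiered n ρ') Δ (pi (var (o 1)) (lift 0 (pisFrom 0 Ds T2))) (sort 0) :=
      Typing.prod hrule hE.o1 hwP
    have habs := Typing.abs hw hprod
    have hA0 : Typing (tiered n ρ') Δ (tr A 0 (degs Γ) env o) (var (o 1)) := by
      have h1 := ihA Δ env o 0 hE (Nat.zero_le _)
      rw [tr_sort_one] at h1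
      exact h1
    have happ := Typing.app habs hA0
    rw [subst_lift] at happ
    exact happ
  · simp only [trLam, if_neg he0]
    exact hL

end Vale.Agent.P340
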