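import Vale.Agent.P340.Dep.EnvOK

/-!
# Preservation of typing by the translation: the application rule
-/

namespace Vale.Agent.P340

open Tm

theorem TrOK.app {n : ℕ} {ρ ρ' : ℕ → ℕ → Prop} {Γ : List (Tm ℕ)} {M N A B : Tm ℕ}
    (hM : Typing (tiered n ρ) Γ M (pi A B)) (hN : Typing (tiered n ρ) Γ N A)
    (ihM : TrOK (tiered n ρ') Γ M (pi A B)) (ihN : TrOK (tiered n ρ') Γ N A) :
    TrOK (tiered n ρ') Γ (app M N) (subst 0 N B) := by
  intro Δ env o e hE he
  have he' : e ≤ deg (degs Γ) M := he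
  have d1 : deg (scons (deg (degs Γ) A - 1) (degs Γ)) B = deg (degs Γ) M + 1 := hM.deg_type
  have d2 : deg (degs Γ) A = deg (degs Γ) N + 1 := hN.deg_type
  have d3 : deg (degs Γ) A - 1 = deg (degs Γ) N := by omega
  have h1 := ihM Δ env o e hE he'
  have e1 : tr (pi A B) (e + 1) (degs Γ) env o =
      pisFrom 0 ((lvls e (deg (degs Γ) N)).map fun e' => tr A (e' + 1) (degs Γ) env o)
        (tr B (e + 1) (scons (deg (degs Γ) N) (degs Γ)) (econs e (deg (degs Γ) N + 1 - e) env)
          (fun x => o x + (deg (degs Γ) N + 1 - e))) := by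
    rw [d3] at d1
    simp only [tr, d3]
    rw [if_neg (by omega)]
    simp only [trPi]
    rw [if_neg (by omega)]
    simp only [Nat.add_sub_cancel]
  rw [e1] at h1
  have e2 : tr (Tm.app M N) e (degs Γ) env o =
      apps (tr M e (degs Γ) env o)
        ((lvls e (deg (degs Γ) N)).map fun e' => tr N e' (degs Γ) env o) := by
    simp only [tr]
    rw [if_neg (by omega)]
  rw [e2, tr_subst_zero B N (e + 1) e (degs Γ) env o (Nat.le_succ e)]
  apply typing_apps _ _ _ _ h1
  rw [List.forall₂_map_left_iff, List.forall₂_map_right_iff, List.forall₂_same]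
  intro e' hm
  obtain ⟨m1, m2⟩ := mem_lvls.mp hm
  exact ihN Δ env o e' (hE.mono m1) m2

end Vale.Agent.P340
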