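import Vale.Agent.P340.Dep.EnvOK

/-!
# Preservation of typing by the translation: the rules for sorts, variables and weakening
-/

namespace Vale.Agent.P340

open Tm

theorem TrOK.ax {n : ℕ} {ρ' : ℕ → ℕ → Prop} {i : ℕ} (h : i + 1 < n) :
    TrOK (tiered n ρ') [] (sort i) (sort (i + 1)) := by
  intro Δ env o e hE he
  have he' : e ≤ i + 2 := he
  match e, hE, he' with
  | 0, hE, _ =>
    rw [tr_sort_zero, tr_sort_one]
    exact hE.o0
  | 1, hE, _ =>
    rw [tr_sort_one, show (1 + 1 : ℕ) = 0 + 2 from rfl, tr_sort_succ_succ (Nat.zero_le _)]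
    exact hE.o1
  | e' + 2, hE, h' =>
    rw [tr_sort_succ_succ (by omega), show e' + 2 + 1 = (e' + 1) + 2 from rfl,
      tr_sort_succ_succ (by omega)]
    exact hE.wf.typing_sort ⟨rfl, by omega⟩

theorem TrOK.var {P' : Spec ℕ} {Γ : List (Tm ℕ)} {A : Tm ℕ} :
    TrOK P' (A :: Γ) (var 0) (lift 0 A) := by
  intro Δ env o e hE he
  have he' : e ≤ degs (A :: Γ) 0 := he
  have h := hE.vars 0 A rfl e le_rfl he'
  have e1 : tr (Tm.var 0) e (degs (A :: Γ)) env o = Tm.var (env 0 e) := by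
    simp only [tr]
    rw [if_neg (by omega)]
  rw [e1]
  exact h

theorem TrOK.weak {P' : Spec ℕ} {Γ : List (Tm ℕ)} {A M B : Tm ℕ} (ih : TrOK P' Γ M B) :
    TrOK P' (A :: Γ) (lift 0 M) (lift 0 B) := by
  intro Δ env o e hE he
  have hd : degs (A :: Γ) = scons (deg (degs Γ) A - 1) (degs Γ) := rfl
  rw [hd] at he ⊢
  rw [deg_lift_zero] at he
  rw [tr_lift_zero, tr_lift_zero]
  exact ih Δ (fun i => env (i + 1)) o e hE.tail he

end Vale.Agent.P340
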