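import Vale.Agent.P340.Dep.EnvOK

/-!
# Preservation of typing by the translation: the conversion rule
-/

namespace Vale.Agent.P340

open Tm

theorem TrOK.conv {n : ℕ} {ρ ρ' : ℕ → ℕ → Prop} {Γ : List (Tm ℕ)} {M A B : Tm ℕ} {s : ℕ}
    (hM : Typing (tiered n ρ) Γ M A) (hB : Typing (tiered n ρ) Γ B (sort s)) (hc : BetaEq A B)
    (ihM : TrOK (tiered n ρ') Γ M A) (ihB : TrOK (tiered n ρ') Γ B (sort s)) :
    TrOK (tiered n ρ') Γ M B := by
  intro Δ env o e hE he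
  have d1 : deg (degs Γ) B = deg (degs Γ) M + 1 := (Typing.conv hM hB hc).deg_type
  have d2 : deg (degs Γ) B = s + 1 := hB.deg_of_sort
  have h1 := ihM Δ env o e hE he
  have h2 := ihB Δ env o (e + 1) (hE.mono (Nat.le_succ e)) (by omega)
  rw [tr_sort_succ_succ (by omega : e ≤ s)] at h2
  have hX : (∃ s, A = sort s) ∨ ∃ T, Typing (tiered n ρ) Γ A T := by
    rcases hM.type_correct with ⟨m, hm⟩ | ⟨i, hi⟩
    · exact Or.inl ⟨m, hm⟩
    · exact Or.inr ⟨_, hi⟩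
  have h3 := tr_betaEq hX (Or.inr ⟨_, hB⟩) hc (e + 1) env o
  exact Typing.conv h1 h2 h3

end Vale.Agent.P340
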