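import Vale.Agent.P340.Dep.EnvOK

/-!
# Preservation of typing by the translation: the product rule
-/

namespace Vale.Agent.P340

open Tm

theorem lift_var_typrod (i : ℕ) : lift 0 (var i : Tm ℕ) = var (i + 1) := by
  simp [lift]

theorem TrOK.prod {n : ℕ} {ρ ρ' : ℕ → ℕ → Prop} (hc : Covers ρ ρ') {Γ : List (Tm ℕ)} {A B : Tm ℕ}
    {i j : ℕ} (hi : i < n) (hj : j < n) (hρ : ρ i j)
    (hA : Typing (tiered n ρ) Γ A (sort i)) (hB : Typing (tiered n ρ) (A :: Γ) B (sort j))
    (ihA : TrOK (tiered n ρ') Γ A (sort i)) (ihB : TrOK (tiered n ρ') (A :: Γ) B (sort j)) :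
    TrOK (tiered n ρ') Γ (pi A B) (sort j) := by
  intro Δ env o e hE he
  have hdA : deg (degs Γ) A = i + 1 := hA.deg_of_sort
  have hdB : deg (degs (A :: Γ)) B = j + 1 := hB.deg_of_sort
  have hdA1 : deg (degs Γ) A - 1 = i := by omega
  have hdegs : degs (A :: Γ) = scons i (degs Γ) := by
    show scons (deg (degs Γ) A - 1) (degs Γ) = _
    rw [hdA1]
  have hdB' : deg (scons i (degs Γ)) B = j + 1 := by rw [← hdegs]; exact hdB
  have he' : e ≤ j + 1 := by
    have h1 : deg (degs Γ) (pi A B) = deg (degs (A :: Γ)) B := rfl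
    omega
  have htr : tr (pi A B) e (degs Γ) env o
      = trPi o e i (fun e' => tr A e' (degs Γ) env o)
        (tr B e (degs (A :: Γ)) (econs (e - 1) (i + 1 - (e - 1)) env)
          (fun x => o x + (i + 1 - (e - 1)))) := by
    rw [tr, hdA1, if_neg (by omega), hdegs]
  rw [htr]
  cases e with
  | zero =>
    -- the shadow of degree zero
    have h0n : 0 < n := by omega
    have hr00 : (tiered n ρ').rule 0 0 0 :=
      ⟨rfl, h0n, h0n, hc i j hρ 0 0 (Nat.zero_le _) le_rfl (Nat.zero_le _)⟩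
    set Ds : List (Tm ℕ) := (lvls 0 i).map fun e' => tr A (e' + 1) (degs Γ) env o with hDsdef
    have hDs : ∀ D ∈ Ds, ∃ a, Typing (tiered n ρ') (Δ.drop 0) D (sort a) ∧
        (tiered n ρ').rule a 0 0 := by
      intro D hD
      obtain ⟨e', he1, rfl⟩ := List.mem_map.mp hD
      obtain ⟨_, h2⟩ := mem_lvls.mp he1
      refine ⟨e', ?_, rfl, by omega, h0n, hc i j hρ 0 e' (Nat.zero_le _) (Nat.zero_le _) h2⟩
      rw [List.drop_zero]
      exact TrOK.dom hA ihA hE (Nat.zero_le _) h2
    have hE' := EnvOK.ext hA ihA hE 0 0 (Nat.zero_le _) le_rfl le_rfl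
    simp only [Nat.sub_zero] at hE'
    have ho1' : Typing (tiered n ρ') (extFrom 0 Ds Δ) (var (o 1 + (i + 1))) (sort 0) := hE'.o1
    have hσ : Typing (tiered n ρ') Δ (pisFrom 0 Ds (var (o 1 + (i + 1)))) (sort 0) :=
      typing_pisFrom Ds 0 Δ _ hE.wf (Nat.zero_le _) hDs ho1'
    have hbody := ihB _ _ _ 0 hE' (Nat.zero_le _)
    rw [Nat.zero_add, tr_sort_one] at hbody
    have hL := typing_lamsFrom Ds 0 Δ _ _ hE.wf (Nat.zero_le _) hDs ho1' hbody
    set σ : Tm ℕ := pisFrom 0 Ds (var (o 1 + (i + 1))) with hσdef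
    -- the constant function
    have hσ1 : Typing (tiered n ρ') (var (o 1) :: Δ) (shift 1 σ) (sort 0) :=
      Typing.weak hσ hE.o1
    have ho0a : Typing (tiered n ρ') (var (o 1) :: Δ) (var (o 0 + 1)) (var (o 1 + 1)) := by
      have := Typing.weak hE.o0 hE.o1
      rwa [lift_var_typrod, lift_var_typrod] at this
    have ho1a : Typing (tiered n ρ') (var (o 1) :: Δ) (var (o 1 + 1)) (sort 0) := by
      have := Typing.weak hE.o1 hE.o1
      rwa [lift_var_typrod] at this
    have ho0b : Typing (tiered n ρ') (shift 1 σ :: var (o 1) :: Δ) (var (o 0 + 2))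
        (var (o 1 + 2)) := by
      have := Typing.weak ho0a hσ1
      rwa [lift_var_typrod, lift_var_typrod] at this
    have ho1b : Typing (tiered n ρ') (shift 1 σ :: var (o 1) :: Δ) (var (o 1 + 2)) (sort 0) := by
      have := Typing.weak ho1a hσ1
      rwa [lift_var_typrod] at this
    have hp1 : Typing (tiered n ρ') (var (o 1) :: Δ) (pi (shift 1 σ) (var (o 1 + 2))) (sort 0) :=
      Typing.prod hr00 hσ1 ho1b
    have hl1 : Typing (tiered n ρ') (var (o 1) :: Δ) (lam (shift 1 σ) (var (o 0 + 2)))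
        (pi (shift 1 σ) (var (o 1 + 2))) := Typing.abs ho0b hp1
    have hp0 : Typing (tiered n ρ') Δ (pi (var (o 1)) (pi (shift 1 σ) (var (o 1 + 2)))) (sort 0) :=
      Typing.prod hr00 hE.o1 hp1
    have hK : Typing (tiered n ρ') Δ (lam (var (o 1)) (lam (shift 1 σ) (var (o 0 + 2))))
        (pi (var (o 1)) (pi (shift 1 σ) (var (o 1 + 2)))) := Typing.abs hl1 hp0
    have hA0 := ihA Δ env o 0 hE (Nat.zero_le _)
    rw [Nat.zero_add, tr_sort_one] at hA0
    have h1 := Typing.app hK hA0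
    have es : subst 0 (tr A 0 (degs Γ) env o) (pi (shift 1 σ) (var (o 1 + 2)))
        = pi σ (var (o 1 + 1)) := by
      have e1 : shift 1 σ = lift 0 σ := rfl
      rw [e1]
      simp only [subst, subst_lift]
      rw [if_neg (by omega), if_neg (by omega)]
      rfl
    rw [es] at h1
    have h2 := Typing.app h1 hL
    have es2 : subst 0 (lamsFrom 0 Ds (tr B 0 (degs (A :: Γ)) (econs 0 (i + 1) env)
        (fun x => o x + (i + 1)))) (var (o 1 + 1) : Tm ℕ) = var (o 1) := by
      simp only [subst]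
      rw [if_neg (by omega), if_neg (by omega)]
      rfl
    rw [es2] at h2
    rw [Nat.zero_add, tr_sort_one]
    simp only [trPi, if_true, Nat.zero_sub, Nat.sub_zero]
    exact h2
  | succ e0 =>
    have he0 : e0 ≤ j := by omega
    have htr2 : tr (sort j) (e0 + 1 + 1) (degs Γ) env o = sort e0 :=
      tr_sort_succ_succ he0 _ _ _
    rw [htr2]
    simp only [trPi, Nat.add_sub_cancel]
    rw [if_neg (by omega)]
    refine typing_pisFrom _ 0 Δ _ hE.wf (Nat.zero_le _) ?_ ?_
    · intro D hD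
      obtain ⟨e', he1, rfl⟩ := List.mem_map.mp hD
      obtain ⟨h1, h2⟩ := mem_lvls.mp he1
      refine ⟨e', ?_, rfl, by omega, by omega, hc i j hρ e0 e' he0 h1 h2⟩
      rw [List.drop_zero]
      exact TrOK.dom hA ihA hE (by omega) h2
    · have hE' := EnvOK.ext hA ihA hE e0 (e0 + 1) le_rfl (Nat.le_succ _) le_rfl
      have hb := ihB _ _ _ (e0 + 1) hE' (by omega)
      rw [tr_sort_succ_succ he0] at hb
      exact hb

end Vale.Agent.P340
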