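import Vale.Agent.P340.Dep.TyBase
import Vale.Agent.P340.Dep.TyProd
import Vale.Agent.P340.Dep.TyAbs
import Vale.Agent.P340.Dep.TyApp
import Vale.Agent.P340.Dep.TyConv

/-!
# Preservation of typing by the translation
-/

namespace Vale.Agent.P340

open Tm

/-- The induction: besides the preservation of the judgment we record the preservation of the
typing of the domain when the subject is a product. -/
theorem Typing.trOK_aux {n : ℕ} {ρ ρ' : ℕ → ℕ → Prop} (hc : Covers ρ ρ') {Γ : List (Tm ℕ)}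
    {M A : Tm ℕ} (h : Typing (tiered n ρ) Γ M A) :
    TrOK (tiered n ρ') Γ M A ∧
      ∀ A₀ B₀, M = pi A₀ B₀ → ∃ i, Typing (tiered n ρ) Γ A₀ (sort i) ∧
        TrOK (tiered n ρ') Γ A₀ (sort i) := by
  induction h with
  | @ax s₁ s₂ h =>
    obtain ⟨rfl, h2⟩ := h
    exact ⟨TrOK.ax h2, fun _ _ h => by cases h⟩
  | var _ _ => exact ⟨TrOK.var, fun _ _ h => by cases h⟩
  | @weak Γ M B A s hM hA ihM _ =>
    refine ⟨TrOK.weak ihM.1, ?_⟩
    intro A₀ B₀ hEq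
    cases M with
    | pi A₁ B₁ =>
      simp only [lift, Tm.pi.injEq] at hEq
      obtain ⟨rfl, rfl⟩ := hEq
      obtain ⟨i, h1, h2⟩ := ihM.2 A₁ B₁ rfl
      exact ⟨i, Typing.weak h1 hA, TrOK.weak h2⟩
    | var k =>
      simp only [lift] at hEq
      split at hEq <;> cases hEq
    | sort k => simp [lift] at hEq
    | app _ _ => simp [lift] at hEq
    | lam _ _ => simp [lift] at hEq
  | @prod Γ A B s₁ s₂ s₃ hr hA hB ihA ihB =>
    obtain ⟨rfl, h1, h2, h3⟩ := hr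
    refine ⟨TrOK.prod hc h1 h2 h3 hA hB ihA.1 ihB.1, ?_⟩
    intro A₀ B₀ hEq
    cases hEq
    exact ⟨_, hA, ihA.1⟩
  | @abs Γ A M B s hM hP ihM ihP =>
    obtain ⟨i, h1, h2⟩ := ihP.2 A B rfl
    exact ⟨TrOK.abs hc h1 hM hP h2 ihM.1 ihP.1, fun _ _ h => by cases h⟩
  | app hM hN ihM ihN => exact ⟨TrOK.app hM hN ihM.1 ihN.1, fun _ _ h => by cases h⟩
  | conv hM hB hcv ihM ihB => exact ⟨TrOK.conv hM hB hcv ihM.1 ihB.1, ihM.2⟩

/-- The translation preserves typing. -/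
theorem Typing.trOK {n : ℕ} {ρ ρ' : ℕ → ℕ → Prop} (hc : Covers ρ ρ') {Γ : List (Tm ℕ)}
    {M A : Tm ℕ} (h : Typing (tiered n ρ) Γ M A) : TrOK (tiered n ρ') Γ M A :=
  (h.trOK_aux hc).1

end Vale.Agent.P340
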